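import Mathlib

/-! The nonlinearity `G(A,c)` of the reduced ordinary differential equation and its bounds. -/

namespace Vale.Agent.Lib.P252

/-- the nonlinearity -/
noncomputable def Gf (K A c : ℝ) : ℝ :=
  1 + (K + 3) / (K + 2 * A) + c * (2 * A + 3 * (K + 3) * A / (K + 2 * A))
    + c ^ 2 * (-(K + 1) * A + 2 * (K + 3) * A ^ 2 / (K + 2 * A))

/-- form with the reciprocal as a variable -/
lemma Gf_eq (K A c : ℝ) : Gf K A c =
    1 + (K + 3) * (K + 2 * A)⁻¹ + c * (2 * A + 3 * (K + 3) * A * (K + 2 * A)⁻¹)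
    + c ^ 2 * (-(K + 1) * A + 2 * (K + 3) * A ^ 2 * (K + 2 * A)⁻¹) := by
  unfold Gf
  ring

lemma Gf_lip_c {K A c c' : ℝ} (hK : 9 ≤ K) (hA : 0 ≤ A) (hA' : A ≤ 9 / 2) (hc : 0 ≤ c)
    (hc1 : c ≤ 5 / 9) (hc' : 0 ≤ c') (hc1' : c' ≤ 5 / 9) :
    |Gf K A c - Gf K A c'| ≤ 3 * K * A * |c - c'| := by
  have hD : 0 < K + 2 * A := by linarith
  set E := (K + 2 * A)⁻¹ with hE
  have hEpos : 0 < E := inv_pos.2 hD
  have hEK : E * (K + 2 * A) = 1 := inv_mul_cancel₀ hD.ne'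
  have hKE : K * E ≤ 1 := by nlinarith
  have h1 : Gf K A c - Gf K A c' =
      (c - c') * A * (2 + 3 * (K + 3) * E + (c + c') * (-(K + 1) + 2 * (K + 3) * A * E)) := by
    rw [Gf_eq, Gf_eq, ← hE]; ring
  -- bracket bound
  have hAE : 0 ≤ A * E := by positivity
  -- (K+3) * E ≤ 4/3
  have hK3E : (K + 3) * E ≤ 4 / 3 := by nlinarith
  have hK3E0 : 0 ≤ (K + 3) * E := by positivity
  -- 2 (K+3) A E ≤ K + 1
  have hq1 : 2 * (K + 3) * A * E ≤ K + 1 := by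
    have : 2 * (K + 3) * A ≤ (K + 1) * (K + 2 * A) := by nlinarith
    calc 2 * (K + 3) * A * E ≤ ((K + 1) * (K + 2 * A)) * E :=
          mul_le_mul_of_nonneg_right this hEpos.le
      _ = (K + 1) * (E * (K + 2 * A)) := by ring
      _ = K + 1 := by rw [hEK]; ring
  have hq0 : 0 ≤ 2 * (K + 3) * A * E := by positivity
  have hB : |2 + 3 * (K + 3) * E + (c + c') * (-(K + 1) + 2 * (K + 3) * A * E)| ≤ 3 * K := by
    have hcc : 0 ≤ c + c' := by linarith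
    have hcc1 : c + c' ≤ 10 / 9 := by linarith
    have hneg : -(K + 1) ≤ -(K + 1) + 2 * (K + 3) * A * E := by linarith
    have hneg2 : -(K + 1) + 2 * (K + 3) * A * E ≤ 0 := by linarith
    rw [abs_le]
    constructor
    · have : (10 / 9) * (-(K + 1)) ≤ (c + c') * (-(K + 1) + 2 * (K + 3) * A * E) := by
        nlinarith
      nlinarith
    · have : (c + c') * (-(K + 1) + 2 * (K + 3) * A * E) ≤ 0 :=
        mul_nonpos_of_nonneg_of_nonpos hcc hneg2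
      nlinarith
  rw [h1, abs_mul, abs_mul, abs_of_nonneg hA]
  calc |c - c'| * A * |2 + 3 * (K + 3) * E + (c + c') * (-(K + 1) + 2 * (K + 3) * A * E)|
      ≤ |c - c'| * A * (3 * K) := by
        apply mul_le_mul_of_nonneg_left hB (by positivity)
    _ = 3 * K * A * |c - c'| := by ring

lemma bracket_bound {K x t y c : ℝ} (hK : 9 ≤ K) (hx : 0 ≤ x) (hx1 : x ≤ 1) (ht : 0 ≤ t)
    (ht1 : t ≤ 2) (hy : 0 ≤ y) (hy1 : y ≤ 2) (hc : 0 ≤ c) (hc1 : c ≤ 5 / 9) :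
    |-2 * x + c * (2 + 3 * t) + c ^ 2 * (-(K + 1) + 2 * (K + 3) * y)| ≤ 10 * K := by
  have hc2 : c ^ 2 ≤ 1 := by nlinarith
  have hc20 : 0 ≤ c ^ 2 := by positivity
  have hKy : 0 ≤ (K + 3) * y := by positivity
  have hKy1 : (K + 3) * y ≤ (K + 3) * 2 := mul_le_mul_of_nonneg_left hy1 (by linarith)
  have hw : |-(K + 1) + 2 * (K + 3) * y| ≤ 5 * K + 13 := by
    rw [abs_le]
    constructor <;> linarith
  have h1 : |-2 * x| ≤ 2 := by
    rw [abs_le]
    constructor <;> linarith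
  have h2 : |c * (2 + 3 * t)| ≤ 8 := by
    rw [abs_of_nonneg (by positivity)]
    calc c * (2 + 3 * t) ≤ 1 * 8 := by
          apply mul_le_mul (by linarith) (by linarith) (by positivity) (by norm_num)
      _ = 8 := by ring
  have h3 : |c ^ 2 * (-(K + 1) + 2 * (K + 3) * y)| ≤ 5 * K + 13 := by
    rw [abs_mul, abs_of_nonneg hc20]
    calc c ^ 2 * |-(K + 1) + 2 * (K + 3) * y| ≤ 1 * (5 * K + 13) :=
          mul_le_mul hc2 hw (abs_nonneg _) zero_le_one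
      _ = 5 * K + 13 := by ring
  have h4 := abs_add_three (-2 * x) (c * (2 + 3 * t)) (c ^ 2 * (-(K + 1) + 2 * (K + 3) * y))
  linarith

lemma inv_facts {K A : ℝ} (hK : 9 ≤ K) (hA : 0 ≤ A) :
    0 < (K + 2 * A)⁻¹ ∧ (K + 2 * A)⁻¹ * (K + 2 * A) = 1 ∧ K * (K + 2 * A)⁻¹ ≤ 1 ∧
      (K + 2 * A)⁻¹ ≤ 1 / 9 := by
  have hD : 0 < K + 2 * A := by linarith
  have h1 : 0 < (K + 2 * A)⁻¹ := inv_pos.2 hD
  have h2 : (K + 2 * A)⁻¹ * (K + 2 * A) = 1 := inv_mul_cancel₀ hD.ne'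
  refine ⟨h1, h2, ?_, ?_⟩
  · nlinarith
  · rw [inv_eq_one_div]
    apply one_div_le_one_div_of_le <;> linarith

lemma diff_form {K A A' E E' c : ℝ} (hEK : E * (K + 2 * A) = 1) (hEK' : E' * (K + 2 * A') = 1) :
    (1 + (K + 3) * E + c * (2 * A + 3 * (K + 3) * A * E)
    + c ^ 2 * (-(K + 1) * A + 2 * (K + 3) * A ^ 2 * E)) -
    (1 + (K + 3) * E' + c * (2 * A' + 3 * (K + 3) * A' * E')
    + c ^ 2 * (-(K + 1) * A' + 2 * (K + 3) * A' ^ 2 * E')) = (A - A') *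
      (-2 * ((K + 3) * (E * E')) + c * (2 + 3 * ((K + 3) * (K * (E * E'))))
        + c ^ 2 * (-(K + 1) + 2 * (K + 3) * ((K * (A + A') + 2 * A * A') * (E * E')))) := by
  have e1 : E - E' = -2 * (A - A') * (E * E') := by
    calc E - E' = E * (E' * (K + 2 * A')) - E' * (E * (K + 2 * A)) := by rw [hEK, hEK']; ring
      _ = _ := by ring
  have e2 : A * E - A' * E' = K * (A - A') * (E * E') := by
    calc A * E - A' * E' = A * E * (E' * (K + 2 * A')) - A' * E' * (E * (K + 2 * A)) := by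
          rw [hEK, hEK']; ring
      _ = _ := by ring
  have e3 : A ^ 2 * E - A' ^ 2 * E' = (A - A') * (K * (A + A') + 2 * A * A') * (E * E') := by
    calc A ^ 2 * E - A' ^ 2 * E'
        = A ^ 2 * E * (E' * (K + 2 * A')) - A' ^ 2 * E' * (E * (K + 2 * A)) := by
          rw [hEK, hEK']; ring
      _ = _ := by ring
  linear_combination (K + 3) * e1 + c * 3 * (K + 3) * e2 + c ^ 2 * 2 * (K + 3) * e3

lemma Gf_lip_A {K A A' c : ℝ} (hK : 9 ≤ K) (hA : 0 ≤ A) (hA1 : A ≤ 9 / 2) (hA' : 0 ≤ A')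
    (hA1' : A' ≤ 9 / 2) (hc : 0 ≤ c) (hc1 : c ≤ 5 / 9) :
    |Gf K A c - Gf K A' c| ≤ 10 * K * |A - A'| := by
  obtain ⟨hE, hEK, hKE, hE9⟩ := inv_facts hK hA
  obtain ⟨hE', hEK', hKE', hE9'⟩ := inv_facts hK hA'
  rw [Gf_eq, Gf_eq, diff_form hEK hEK']
  set E := (K + 2 * A)⁻¹
  set E' := (K + 2 * A')⁻¹
  have hEE : 0 < E * E' := mul_pos hE hE'
  have hKEE : K * (E * E') ≤ 1 / 9 := by
    calc K * (E * E') = (K * E) * E' := by ring
      _ ≤ 1 * (1 / 9) := mul_le_mul hKE hE9' hE'.le zero_le_one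
      _ = 1 / 9 := by ring
  have hEE81 : E * E' ≤ 1 / 81 := by
    calc E * E' ≤ (1 / 9) * (1 / 9) := mul_le_mul hE9 hE9' hE'.le (by norm_num)
      _ = 1 / 81 := by norm_num
  have hx1 : (K + 3) * (E * E') ≤ 1 := by
    have : (K + 3) * (E * E') = K * (E * E') + 3 * (E * E') := by ring
    linarith
  have hx3 : (K + 3) * (K * (E * E')) ≤ 2 := by
    calc (K + 3) * (K * (E * E')) = (K * E) * (K * E') + 3 * (K * (E * E')) := by ring
      _ ≤ 1 * 1 + 3 * (1 / 9) := by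
          apply add_le_add
          · exact mul_le_mul hKE hKE' (by positivity) zero_le_one
          · linarith
      _ ≤ 2 := by norm_num
  have hy : (K * (A + A') + 2 * A * A') * (E * E') ≤ 2 := by
    have hs : A + A' ≤ 9 := by linarith
    have hp : A * A' ≤ 81 / 4 := by
      calc A * A' ≤ (9 / 2) * (9 / 2) := mul_le_mul hA1 hA1' hA' (by norm_num)
        _ = 81 / 4 := by norm_num
    calc (K * (A + A') + 2 * A * A') * (E * E')
        = (K * (E * E')) * (A + A') + 2 * (A * A') * (E * E') := by ring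
      _ ≤ (1 / 9) * 9 + 2 * (81 / 4) * (1 / 81) := by
          apply add_le_add
          · exact mul_le_mul hKEE hs (by linarith) (by norm_num)
          · apply mul_le_mul _ hEE81 hEE.le (by norm_num)
            linarith
      _ ≤ 2 := by norm_num
  have hB := bracket_bound (x := (K + 3) * (E * E')) (t := (K + 3) * (K * (E * E')))
    (y := (K * (A + A') + 2 * A * A') * (E * E')) hK (by positivity) hx1 (by positivity) hx3
    (by positivity) hy hc hc1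
  rw [abs_mul, mul_comm]
  exact mul_le_mul_of_nonneg_right hB (abs_nonneg _)

lemma Gf_top {K A : ℝ} (hK : 9 ≤ K) (hA : 0 ≤ A) (hA' : A ≤ 9 / 2) :
    Gf K A (5 / 9) ≤ (K + 2) * (5 / 9) := by
  have hD : 0 < K + 2 * A := by linarith
  have h1 : Gf K A (5 / 9) = ((K + 2 * A) * (1 + 2 * A * (5 / 9) - (K + 1) * A * (5 / 9) ^ 2)
      + (K + 3) * (1 + 3 * A * (5 / 9) + 2 * A ^ 2 * (5 / 9) ^ 2)) / (K + 2 * A) := by
    unfold Gf
    field_simp
    ring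
  rw [h1, div_le_iff₀ hD]
  -- convexity in A
  have e0 : (0:ℝ) ≤ (K - 9) * (5 * K / 9 + 37 / 9) + 34 := by nlinarith
  have e1 : (0:ℝ) ≤ (K - 9) * (35 * K / 18 + 21 / 2) := by
    apply mul_nonneg <;> nlinarith
  nlinarith [mul_nonneg hA (by linarith : (0:ℝ) ≤ 9 / 2 - A), mul_nonneg hA e1,
    mul_nonneg (by linarith : (0:ℝ) ≤ 9 / 2 - A) e0]

lemma Gf_zero_nonneg {K A : ℝ} (hK : 9 ≤ K) (hA : 0 ≤ A) : 0 ≤ Gf K A 0 := by
  unfold Gf
  have hD : 0 < K + 2 * A := by linarith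
  have : 0 ≤ (K + 3) / (K + 2 * A) := by positivity
  simp only [zero_mul, ne_eq, OfNat.ofNat_ne_zero, not_false_eq_true, zero_pow, add_zero]
  linarith

lemma Gam_nonneg {K A c : ℝ} (hK : 9 ≤ K) (hA : 0 ≤ A) (hA' : A ≤ 9 / 2) (hc : 0 ≤ c)
    (hc1 : c ≤ 5 / 9) : 0 ≤ 14 * K * c + Gf K A c := by
  have h1 := Gf_lip_c hK hA hA' hc hc1 le_rfl (by norm_num : (0:ℝ) ≤ 5 / 9)
  have h2 := Gf_zero_nonneg hK hA
  rw [sub_zero, abs_of_nonneg hc] at h1
  have h3 := (abs_le.1 h1).1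
  have h4 : 3 * K * A * c ≤ 14 * K * c := by
    apply mul_le_mul_of_nonneg_right _ hc
    nlinarith
  linarith

lemma Gam_le {K A c : ℝ} (hK : 9 ≤ K) (hA : 0 ≤ A) (hA' : A ≤ 9 / 2) (hc : 0 ≤ c)
    (hc1 : c ≤ 5 / 9) : 14 * K * c + Gf K A c ≤ (15 * K + 2) * (5 / 9) := by
  have h1 := Gf_lip_c hK hA hA' hc hc1 (by norm_num : (0:ℝ) ≤ 5 / 9) le_rfl
  have h2 := Gf_top hK hA hA'
  rw [abs_sub_comm c, abs_of_nonneg (by linarith : (0:ℝ) ≤ 5 / 9 - c)] at h1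
  have h3 := (abs_le.1 h1).2
  have h4 : 3 * K * A * (5 / 9 - c) ≤ 14 * K * (5 / 9 - c) := by
    apply mul_le_mul_of_nonneg_right _ (by linarith)
    nlinarith
  linarith

end Vale.Agent.Lib.P252
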