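import Vale.Agent.Lib.P252.TOp
import Vale.Agent.Lib.P252.GFun

/-! The integral operator and its contraction property. -/

namespace Vale.Agent.Lib.P252

open Set Filter Topology MeasureTheory

/-- admissible functions -/
structure Adm (c : ℝ → ℝ) : Prop where
  cont : Continuous c
  nonneg : ∀ s, 0 ≤ c s
  le : ∀ s, c s ≤ 5 / 9

/-- the reciprocal of `a` -/
noncomputable def rho (c : ℝ → ℝ) (s : ℝ) : ℝ := 1 + ∫ t in (0:ℝ)..s, (1 - c t)

lemma rho_hasDerivAt {c : ℝ → ℝ} (hc : Continuous c) (s : ℝ) :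
    HasDerivAt (rho c) (1 - c s) s := by
  have hcont : Continuous (fun t => 1 - c t) := continuous_const.sub hc
  exact (intervalIntegral.integral_hasDerivAt_right (hcont.intervalIntegrable _ _)
    (hcont.stronglyMeasurableAtFilter _ _) hcont.continuousAt).const_add 1

lemma rho_zero (c : ℝ → ℝ) : rho c 0 = 1 := by simp [rho]

lemma rho_ge {c : ℝ → ℝ} (hc : Adm c) {s : ℝ} (hs : 0 ≤ s) : 1 + 4 * s / 9 ≤ rho c s := by
  unfold rho
  have h1 : ∫ t in (0:ℝ)..s, (4 / 9 : ℝ) ≤ ∫ t in (0:ℝ)..s, (1 - c t) := by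
    have hcont : Continuous (fun t => 1 - c t) := continuous_const.sub hc.cont
    apply intervalIntegral.integral_mono_on hs intervalIntegrable_const
      (hcont.intervalIntegrable _ _)
    intro x _
    have := hc.le x
    show (4 / 9 : ℝ) ≤ 1 - c x
    linarith
  rw [intervalIntegral.integral_const, smul_eq_mul] at h1
  linarith

lemma rho_pos {c : ℝ → ℝ} (hc : Adm c) {s : ℝ} (hs : 0 ≤ s) : 0 < rho c s := by
  have := rho_ge hc hs
  linarith

lemma rho_ge_one {c : ℝ → ℝ} (hc : Adm c) {s : ℝ} (hs : 0 ≤ s) : 1 ≤ rho c s := by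
  have := rho_ge hc hs
  linarith

/-- the variable `A = 2 s a` -/
noncomputable def Ac (c : ℝ → ℝ) (s : ℝ) : ℝ := 2 * s / rho c s

lemma Ac_nonneg {c : ℝ → ℝ} (hc : Adm c) {s : ℝ} (hs : 0 ≤ s) : 0 ≤ Ac c s := by
  have := rho_pos hc hs
  unfold Ac
  positivity

lemma Ac_le {c : ℝ → ℝ} (hc : Adm c) {s : ℝ} (hs : 0 ≤ s) : Ac c s ≤ 9 / 2 := by
  have h1 := rho_ge hc hs
  unfold Ac
  rw [div_le_iff₀ (rho_pos hc hs)]
  linarith

lemma Ac_le' {c : ℝ → ℝ} (hc : Adm c) {s : ℝ} (hs : 0 ≤ s) : Ac c s ≤ 2 * s := by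
  have h1 := rho_ge_one hc hs
  unfold Ac
  rw [div_le_iff₀ (rho_pos hc hs)]
  nlinarith

/-- the integrand -/
noncomputable def Gam (K : ℝ) (c : ℝ → ℝ) (s : ℝ) : ℝ := 14 * K * c s + Gf K (Ac c s) (c s)

lemma Ac_continuousOn {c : ℝ → ℝ} (hc : Adm c) : ContinuousOn (Ac c) (Ici 0) := by
  unfold Ac
  apply ContinuousOn.div (by fun_prop)
  · exact fun x _ => (rho_hasDerivAt hc.cont x).continuousAt.continuousWithinAt
  · intro x hx
    exact (rho_pos hc hx).ne'

lemma Gf_continuousOn {K : ℝ} (hK : 9 ≤ K) {f g : ℝ → ℝ} {S : Set ℝ} (hf : ContinuousOn f S)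
    (hg : ContinuousOn g S) (hf0 : ∀ x ∈ S, 0 ≤ f x) :
    ContinuousOn (fun x => Gf K (f x) (g x)) S := by
  unfold Gf
  have hne : ∀ x ∈ S, K + 2 * f x ≠ 0 := fun x hx => by
    have := hf0 x hx
    have : 0 < K + 2 * f x := by linarith
    exact this.ne'
  have hd : ContinuousOn (fun x => K + 2 * f x) S := continuousOn_const.add (continuousOn_const.mul hf)
  refine ((continuousOn_const.add (continuousOn_const.div hd hne)).add (hg.mul ?_)).add
    ((hg.pow 2).mul ?_)
  · exact (continuousOn_const.mul hf).add ((continuousOn_const.mul hf).div hd hne)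
  · exact (continuousOn_const.mul hf).add ((continuousOn_const.mul (hf.pow 2)).div hd hne)

lemma Gam_continuousOn {K : ℝ} (hK : 9 ≤ K) {c : ℝ → ℝ} (hc : Adm c) :
    ContinuousOn (Gam K c) (Ici 0) := by
  unfold Gam
  exact (continuousOn_const.mul hc.cont.continuousOn).add
    (Gf_continuousOn hK (Ac_continuousOn hc) hc.cont.continuousOn (fun x hx => Ac_nonneg hc hx))

/-- the operator -/
noncomputable def Op (K : ℝ) (c : ℝ → ℝ) (s : ℝ) : ℝ := (1 / 2) * T (15 * K / 2) (Gam K c) s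

lemma Op_continuousOn {K : ℝ} (hK : 9 ≤ K) {c : ℝ → ℝ} (hc : Adm c) :
    ContinuousOn (Op K c) (Ici 0) := by
  unfold Op
  exact continuousOn_const.mul (T_continuousOn (by linarith) (Gam_continuousOn hK hc))

lemma T_integrable {c : ℝ} (hc : 0 ≤ c) {g : ℝ → ℝ} (hg : ContinuousOn g (Ici 0)) {s : ℝ}
    (hs : 0 ≤ s) : IntervalIntegrable (fun σ => σ ^ c * g (σ * s)) volume 0 1 := by
  apply ContinuousOn.intervalIntegrable
  rw [uIcc_of_le zero_le_one]
  apply ContinuousOn.mul (Real.continuous_rpow_const hc).continuousOn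
  exact hg.comp (by fun_prop) (fun x hx => mul_nonneg hx.1 hs)

lemma T_mono {c : ℝ} (hc : 0 ≤ c) {f g : ℝ → ℝ} (hf : ContinuousOn f (Ici 0))
    (hg : ContinuousOn g (Ici 0)) (h : ∀ x, 0 ≤ x → f x ≤ g x) {s : ℝ} (hs : 0 ≤ s) :
    T c f s ≤ T c g s := by
  unfold T
  apply intervalIntegral.integral_mono_on zero_le_one (T_integrable hc hf hs)
    (T_integrable hc hg hs)
  intro x hx
  exact mul_le_mul_of_nonneg_left (h _ (mul_nonneg hx.1 hs)) (Real.rpow_nonneg hx.1 _)

lemma Op_nonneg {K : ℝ} (hK : 9 ≤ K) {c : ℝ → ℝ} (hc : Adm c) {s : ℝ} (hs : 0 ≤ s) :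
    0 ≤ Op K c s := by
  have h0 : (0:ℝ) ≤ 15 * K / 2 := by linarith
  have h1 := T_mono h0 continuousOn_const (Gam_continuousOn hK hc)
    (f := fun _ => 0) (fun x hx => Gam_nonneg hK (Ac_nonneg hc hx) (Ac_le hc hx) (hc.nonneg x)
      (hc.le x)) hs
  rw [T_const h0, zero_div] at h1
  unfold Op
  linarith

lemma Op_le {K : ℝ} (hK : 9 ≤ K) {c : ℝ → ℝ} (hc : Adm c) {s : ℝ} (hs : 0 ≤ s) :
    Op K c s ≤ 5 / 9 := by
  have h0 : (0:ℝ) ≤ 15 * K / 2 := by linarith
  have h1 := T_mono h0 (Gam_continuousOn hK hc) continuousOn_const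
    (g := fun _ => (15 * K + 2) * (5 / 9)) (fun x hx => Gam_le hK (Ac_nonneg hc hx)
      (Ac_le hc hx) (hc.nonneg x) (hc.le x)) hs
  rw [T_const h0] at h1
  unfold Op
  have h2 : (15 * K + 2) * (5 / 9) / (15 * K / 2 + 1) = 10 / 9 := by
    have : 15 * K / 2 + 1 ≠ 0 := by linarith
    field_simp
    ring
  rw [h2] at h1
  linarith

lemma integral_exp_lin {L : ℝ} (hL : 0 < L) (x : ℝ) :
    ∫ t in (0:ℝ)..x, Real.exp (L * t) = (Real.exp (L * x) - 1) / L := by
  have h : ∀ t ∈ uIcc (0:ℝ) x, HasDerivAt (fun t => Real.exp (L * t) / L) (Real.exp (L * t)) t := by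
    intro t _
    have h1 : HasDerivAt (fun t => Real.exp (L * t)) (Real.exp (L * t) * (L * 1)) t :=
      ((hasDerivAt_id t).const_mul L).exp
    refine (h1.div_const L).congr_deriv ?_
    field_simp
  rw [intervalIntegral.integral_eq_sub_of_hasDerivAt h
    ((Real.continuous_exp.comp (continuous_const.mul continuous_id)).intervalIntegrable _ _)]
  simp
  ring

lemma integral_exp_lin' {L : ℝ} (hL : 0 < L) (s : ℝ) :
    ∫ σ in (0:ℝ)..1, s * Real.exp (L * (σ * s)) = (Real.exp (L * s) - 1) / L := by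
  have h : ∀ t ∈ uIcc (0:ℝ) 1,
      HasDerivAt (fun t => Real.exp (L * (t * s)) / L) (s * Real.exp (L * (t * s))) t := by
    intro t _
    have h1 : HasDerivAt (fun t => Real.exp (L * (t * s)))
        (Real.exp (L * (t * s)) * (L * (1 * s))) t :=
      (((hasDerivAt_id t).mul_const s).const_mul L).exp
    refine (h1.div_const L).congr_deriv ?_
    field_simp
  have hcont : Continuous (fun t : ℝ => s * Real.exp (L * (t * s))) := by fun_prop
  rw [intervalIntegral.integral_eq_sub_of_hasDerivAt h (hcont.intervalIntegrable _ _)]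
  simp
  ring

section Lip

variable {K : ℝ} {c d : ℝ → ℝ} {D : ℝ}

lemma rho_diff (hK : 9 ≤ K) (hc : Adm c) (hd : Adm d) (hD : 0 ≤ D)
    (hcd : ∀ t, 0 ≤ t → |c t - d t| ≤ D * Real.exp (1000 * K * t)) {t : ℝ} (ht : 0 ≤ t) :
    |rho c t - rho d t| ≤ D / (1000 * K) * Real.exp (1000 * K * t) := by
  have hL : 0 < 1000 * K := by linarith
  have e1 : rho c t - rho d t = ∫ x in (0:ℝ)..t, (d x - c x) := by
    unfold rho
    have i1 : IntervalIntegrable (fun t => 1 - c t) volume 0 t :=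
      (continuous_const.sub hc.cont).intervalIntegrable _ _
    have i2 : IntervalIntegrable (fun t => 1 - d t) volume 0 t :=
      (continuous_const.sub hd.cont).intervalIntegrable _ _
    rw [add_sub_add_left_eq_sub, ← intervalIntegral.integral_sub i1 i2]
    congr 1
    ext x
    ring
  rw [e1]
  have h1 : ‖∫ x in (0:ℝ)..t, (d x - c x)‖ ≤ ∫ x in (0:ℝ)..t, D * Real.exp (1000 * K * x) := by
    apply intervalIntegral.norm_integral_le_of_norm_le ht
    · filter_upwards with x hx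
      rw [Real.norm_eq_abs, abs_sub_comm]
      exact hcd x hx.1.le
    · exact Continuous.intervalIntegrable (by fun_prop) _ _
  rw [intervalIntegral.integral_const_mul, integral_exp_lin hL, Real.norm_eq_abs] at h1
  calc |∫ x in (0:ℝ)..t, (d x - c x)| ≤ D * ((Real.exp (1000 * K * t) - 1) / (1000 * K)) := h1
    _ ≤ D * (Real.exp (1000 * K * t) / (1000 * K)) := by
        apply mul_le_mul_of_nonneg_left _ hD
        apply div_le_div_of_nonneg_right _ hL.le
        linarith
    _ = _ := by ring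

lemma Ac_diff (hK : 9 ≤ K) (hc : Adm c) (hd : Adm d) (hD : 0 ≤ D)
    (hcd : ∀ t, 0 ≤ t → |c t - d t| ≤ D * Real.exp (1000 * K * t)) {t : ℝ} (ht : 0 ≤ t) :
    |Ac c t - Ac d t| ≤ (9 / 2) * (D / (1000 * K) * Real.exp (1000 * K * t)) := by
  have h1 := rho_diff hK hc hd hD hcd ht
  have hp := rho_pos hc ht
  have hp' := rho_pos hd ht
  have e1 : Ac c t - Ac d t = Ac c t * ((rho d t)⁻¹ * (rho d t - rho c t)) := by
    unfold Ac
    field_simp
  rw [e1, abs_mul, abs_mul, abs_of_nonneg (Ac_nonneg hc ht), abs_of_pos (inv_pos.2 hp'),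
    abs_sub_comm]
  have h2 : (rho d t)⁻¹ ≤ 1 := inv_le_one_of_one_le₀ (rho_ge_one hd ht)
  apply mul_le_mul (Ac_le hc ht) _ (by positivity) (by norm_num)
  calc (rho d t)⁻¹ * |rho c t - rho d t| ≤ 1 * |rho c t - rho d t| :=
        mul_le_mul_of_nonneg_right h2 (abs_nonneg _)
    _ = |rho c t - rho d t| := one_mul _
    _ ≤ _ := h1

lemma Gam_diff (hK : 9 ≤ K) (hc : Adm c) (hd : Adm d) (hD : 0 ≤ D)
    (hcd : ∀ t, 0 ≤ t → |c t - d t| ≤ D * Real.exp (1000 * K * t)) {t : ℝ} (ht : 0 ≤ t) :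
    |Gam K c t - Gam K d t| ≤
      (14 * K + 6 * K * t + 9 / 200) * (D * Real.exp (1000 * K * t)) := by
  have h0 := hcd t ht
  have h1 := Gf_lip_c hK (Ac_nonneg hc ht) (Ac_le hc ht) (hc.nonneg t) (hc.le t) (hd.nonneg t)
    (hd.le t)
  have h2 := Gf_lip_A hK (Ac_nonneg hc ht) (Ac_le hc ht) (Ac_nonneg hd ht) (Ac_le hd ht)
    (hd.nonneg t) (hd.le t)
  have h3 := Ac_diff hK hc hd hD hcd ht
  have h4 := Ac_le' hc ht
  set Y := D * Real.exp (1000 * K * t) with hY
  have hY0 : 0 ≤ Y := by positivity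
  have hK0 : 0 < K := by linarith
  have e1 : Gam K c t - Gam K d t = 14 * K * (c t - d t)
      + (Gf K (Ac c t) (c t) - Gf K (Ac c t) (d t))
      + (Gf K (Ac c t) (d t) - Gf K (Ac d t) (d t)) := by
    unfold Gam
    ring
  rw [e1]
  have h5 : |14 * K * (c t - d t)| ≤ 14 * K * Y := by
    rw [abs_mul, abs_of_nonneg (by linarith : (0:ℝ) ≤ 14 * K)]
    exact mul_le_mul_of_nonneg_left h0 (by linarith)
  have h6 : |Gf K (Ac c t) (c t) - Gf K (Ac c t) (d t)| ≤ 6 * K * t * Y := by
    refine h1.trans ?_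
    calc 3 * K * Ac c t * |c t - d t| ≤ (3 * K * (2 * t)) * Y := by
          apply mul_le_mul _ h0 (abs_nonneg _) (by positivity)
          exact mul_le_mul_of_nonneg_left h4 (by linarith)
      _ = 6 * K * t * Y := by ring
  have h7 : |Gf K (Ac c t) (d t) - Gf K (Ac d t) (d t)| ≤ 9 / 200 * Y := by
    refine h2.trans ?_
    calc 10 * K * |Ac c t - Ac d t|
        ≤ 10 * K * ((9 / 2) * (D / (1000 * K) * Real.exp (1000 * K * t))) :=
          mul_le_mul_of_nonneg_left h3 (by linarith)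
      _ = 9 / 200 * Y := by
          rw [hY]
          field_simp
          ring
  calc _ ≤ |14 * K * (c t - d t)| + |Gf K (Ac c t) (c t) - Gf K (Ac c t) (d t)|
        + |Gf K (Ac c t) (d t) - Gf K (Ac d t) (d t)| := abs_add_three _ _ _
    _ ≤ 14 * K * Y + 6 * K * t * Y + 9 / 200 * Y := by linarith
    _ = _ := by ring

lemma Op_lip (hK : 9 ≤ K) (hc : Adm c) (hd : Adm d) (hD : 0 ≤ D)
    (hcd : ∀ t, 0 ≤ t → |c t - d t| ≤ D * Real.exp (1000 * K * t)) {s : ℝ} (hs : 0 ≤ s) :
    |Op K c s - Op K d s| ≤ (97 / 100) * (D * Real.exp (1000 * K * s)) := by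
  have h0 : (0:ℝ) ≤ 15 * K / 2 := by linarith
  have hK0 : 0 < K := by linarith
  have hL : 0 < 1000 * K := by linarith
  have e1 : Op K c s - Op K d s = (1 / 2) * ∫ σ in (0:ℝ)..1,
      (σ ^ (15 * K / 2) * Gam K c (σ * s) - σ ^ (15 * K / 2) * Gam K d (σ * s)) := by
    unfold Op T
    rw [intervalIntegral.integral_sub (T_integrable h0 (Gam_continuousOn hK hc) hs)
      (T_integrable h0 (Gam_continuousOn hK hd) hs)]
    ring
  set Y := D * Real.exp (1000 * K * s) with hY
  have hY0 : 0 ≤ Y := by positivity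
  have h1 : ‖∫ σ in (0:ℝ)..1,
      (σ ^ (15 * K / 2) * Gam K c (σ * s) - σ ^ (15 * K / 2) * Gam K d (σ * s))‖ ≤
      ∫ σ in (0:ℝ)..1, (σ ^ (15 * K / 2) * (14 * K * Y)
        + 6 * K * D * (s * Real.exp (1000 * K * (σ * s))) + 9 / 200 * Y) := by
    apply intervalIntegral.norm_integral_le_of_norm_le zero_le_one
    · filter_upwards with σ hσ
      have hσs : 0 ≤ σ * s := mul_nonneg hσ.1.le hs
      have hσs1 : σ * s ≤ s := by nlinarith [hσ.2]
      have hp0 : 0 ≤ σ ^ (15 * K / 2) := Real.rpow_nonneg hσ.1.le _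
      have hp1 : σ ^ (15 * K / 2) ≤ 1 := Real.rpow_le_one hσ.1.le hσ.2 h0
      have hg := Gam_diff hK hc hd hD hcd hσs
      have hexp : Real.exp (1000 * K * (σ * s)) ≤ Real.exp (1000 * K * s) :=
        Real.exp_le_exp.2 (mul_le_mul_of_nonneg_left hσs1 hL.le)
      have hYY : D * Real.exp (1000 * K * (σ * s)) ≤ Y :=
        mul_le_mul_of_nonneg_left hexp hD
      have hZ0 : 0 ≤ D * Real.exp (1000 * K * (σ * s)) := by positivity
      rw [← mul_sub, norm_mul, Real.norm_eq_abs, Real.norm_eq_abs, abs_of_nonneg hp0]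
      calc σ ^ (15 * K / 2) * |Gam K c (σ * s) - Gam K d (σ * s)|
          ≤ σ ^ (15 * K / 2) * ((14 * K + 6 * K * (σ * s) + 9 / 200) *
            (D * Real.exp (1000 * K * (σ * s)))) := mul_le_mul_of_nonneg_left hg hp0
        _ = σ ^ (15 * K / 2) * (14 * K * (D * Real.exp (1000 * K * (σ * s))))
            + σ ^ (15 * K / 2) * (6 * K * (σ * s) * (D * Real.exp (1000 * K * (σ * s))))
            + σ ^ (15 * K / 2) * (9 / 200 * (D * Real.exp (1000 * K * (σ * s)))) := by ring
        _ ≤ σ ^ (15 * K / 2) * (14 * K * Y)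
            + 1 * (6 * K * s * (D * Real.exp (1000 * K * (σ * s))))
            + 1 * (9 / 200 * Y) := by
              apply add_le_add
              · apply add_le_add
                · apply mul_le_mul_of_nonneg_left _ hp0
                  exact mul_le_mul_of_nonneg_left hYY (by linarith)
                · apply mul_le_mul hp1 _ (by positivity) zero_le_one
                  apply mul_le_mul_of_nonneg_right _ hZ0
                  apply mul_le_mul_of_nonneg_left hσs1 (by linarith)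
              · apply mul_le_mul hp1 _ (by positivity) zero_le_one
                exact mul_le_mul_of_nonneg_left hYY (by norm_num)
        _ = _ := by ring
    · apply Continuous.intervalIntegrable
      have := Real.continuous_rpow_const h0
      fun_prop
  have e2 : ∫ σ in (0:ℝ)..1, (σ ^ (15 * K / 2) * (14 * K * Y)
        + 6 * K * D * (s * Real.exp (1000 * K * (σ * s))) + 9 / 200 * Y) =
      1 / (15 * K / 2 + 1) * (14 * K * Y)
        + 6 * K * D * ((Real.exp (1000 * K * s) - 1) / (1000 * K)) + 9 / 200 * Y := by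
    have i1 : IntervalIntegrable (fun σ : ℝ => σ ^ (15 * K / 2) * (14 * K * Y)) volume 0 1 :=
      ((Real.continuous_rpow_const h0).mul continuous_const).intervalIntegrable _ _
    have i2 : IntervalIntegrable
        (fun σ : ℝ => 6 * K * D * (s * Real.exp (1000 * K * (σ * s)))) volume 0 1 :=
      Continuous.intervalIntegrable (by fun_prop) _ _
    rw [intervalIntegral.integral_add (i1.add i2) intervalIntegrable_const,
      intervalIntegral.integral_add i1 i2, intervalIntegral.integral_mul_const,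
      integral_rpow01 h0, intervalIntegral.integral_const_mul, integral_exp_lin' hL,
      intervalIntegral.integral_const]
    simp
  rw [e2, Real.norm_eq_abs] at h1
  rw [e1, abs_mul, abs_of_nonneg (by norm_num : (0:ℝ) ≤ 1 / 2)]
  have h2 : 1 / (15 * K / 2 + 1) * (14 * K * Y) ≤ 28 / 15 * Y := by
    have : 1 / (15 * K / 2 + 1) * (14 * K) ≤ 28 / 15 := by
      rw [div_mul_eq_mul_div, div_le_iff₀ (by linarith)]
      linarith
    calc 1 / (15 * K / 2 + 1) * (14 * K * Y) = (1 / (15 * K / 2 + 1) * (14 * K)) * Y := by ring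
      _ ≤ 28 / 15 * Y := mul_le_mul_of_nonneg_right this hY0
  have h3 : 6 * K * D * ((Real.exp (1000 * K * s) - 1) / (1000 * K)) ≤ 6 / 1000 * Y := by
    have : 6 * K * D * ((Real.exp (1000 * K * s) - 1) / (1000 * K))
        = 6 / 1000 * (Y - D) := by
      rw [hY]
      field_simp
    rw [this]
    linarith
  linarith

end Lip

end Vale.Agent.Lib.P252
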