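import Mathlib

/-! Definitions for the affine maximal equation, and the interface between the ODE part and the
PDE verification part of the construction of entire solutions in dimension at least ten. -/

namespace Vale.Agent.Lib.P252

open scoped ContDiff

/-- The Hessian matrix of `u` at `x`: the matrix of second partial derivatives. -/
noncomputable def hess {n : ℕ} (u : (Fin n → ℝ) → ℝ) (x : Fin n → ℝ) :
    Matrix (Fin n) (Fin n) ℝ :=
  Matrix.of fun i j =>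
    fderiv ℝ (fun y => fderiv ℝ u y (Pi.single i 1)) x (Pi.single j 1)

/-- The function `w = (det D²u)^(-(n+1)/(n+2))`. -/
noncomputable def wfun {n : ℕ} (u : (Fin n → ℝ) → ℝ) (x : Fin n → ℝ) : ℝ :=
  (hess u x).det ^ (-((n : ℝ) + 1) / ((n : ℝ) + 2))

/-- The left-hand side of the affine maximal equation, `∑ U^{ij} ∂_{ij} w`, where
`U^{ij} = det (D²u) (D²u)⁻¹_{ij}`. -/
noncomputable def AM {n : ℕ} (u : (Fin n → ℝ) → ℝ) (x : Fin n → ℝ) : ℝ :=
  ∑ i, ∑ j, ((hess u x).det * (hess u x)⁻¹ i j) * hess (wfun u) x i j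

/-- half the squared norm of the first `k` coordinates -/
noncomputable def qf (k : ℕ) (x : Fin (k + 1) → ℝ) : ℝ := (∑ i : Fin k, x i.castSucc ^ 2) / 2

/-- the candidate solution -/
noncomputable def uf (k : ℕ) (f : ℝ → ℝ) (x : Fin (k + 1) → ℝ) : ℝ :=
  Real.sqrt (f (qf k x) ^ 2 + x (Fin.last k) ^ 2)

/-- The data produced by the ODE part. -/
structure OdeData (k : ℕ) (f a b b' : ℝ → ℝ) : Prop where
  smooth_f : ContDiffOn ℝ ∞ f (Set.Ici 0)
  f_pos : ∀ s, 0 ≤ s → 0 < f s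
  a_pos : ∀ s, 0 ≤ s → 0 < a s
  b_nonneg : ∀ s, 0 ≤ s → 0 ≤ b s
  deriv_f : ∀ s, 0 ≤ s → HasDerivWithinAt f (a s * f s) (Set.Ici 0) s
  deriv_a : ∀ s, 0 ≤ s → HasDerivWithinAt a (a s * (b s - a s)) (Set.Ici 0) s
  deriv_b : ∀ s, 0 ≤ s → HasDerivWithinAt b (b' s) (Set.Ici 0) s
  ode : ∀ s, 0 ≤ s → 2 * s * b' s = -2 * b s + (1 + 2 * s * b s) *
    (-(k * b s) + a s + (k + 3) * a s * (1 + 4 * s * b s) / (k + 4 * s * a s))

/-- The PDE part: from the ODE data one obtains a smooth entire solution with positive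
definite Hessian which is not a quadratic polynomial. -/
def PdePart : Prop :=
  ∀ (k : ℕ) (f a b b' : ℝ → ℝ), 1 ≤ k → OdeData k f a b b' →
    ContDiff ℝ ∞ (uf k f) ∧ (∀ x, (hess (uf k f) x).PosDef) ∧ (∀ x, AM (uf k f) x = 0) ∧
    ¬ ∃ (A : Matrix (Fin (k + 1)) (Fin (k + 1)) ℝ) (c : Fin (k + 1) → ℝ) (d : ℝ),
      ∀ x, uf k f x = (1 / 2) * (x ⬝ᵥ A.mulVec x) + c ⬝ᵥ x + d

/-- The ODE part. -/
def OdePart : Prop := ∀ k : ℕ, 9 ≤ k → ∃ f a b b' : ℝ → ℝ, OdeData k f a b b'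

end Vale.Agent.Lib.P252
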