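import Vale.Agent.Lib.P252.Contract

/-! The fixed point of the integral operator. -/

namespace Vale.Agent.Lib.P252

open Set Filter Topology MeasureTheory
open scoped BoundedContinuousFunction NNReal

/-- clamping to the interval `[0, 5/9]` -/
noncomputable def cl (x : ℝ) : ℝ := max 0 (min x (5 / 9))

lemma cl_lip (x y : ℝ) : |cl x - cl y| ≤ |x - y| := by
  unfold cl
  have h1 : |max 0 (min x (5 / 9)) - max 0 (min y (5 / 9))| ≤ |min x (5 / 9) - min y (5 / 9)| := by
    have := abs_max_sub_max_le_max 0 (min x (5 / 9)) 0 (min y (5 / 9))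
    simpa using this
  have h2 : |min x (5 / 9) - min y (5 / 9)| ≤ |x - y| := by
    have := abs_min_sub_min_le_max x (5 / 9) y (5 / 9)
    simpa using this
  exact h1.trans h2

lemma cl_eq {x : ℝ} (h0 : 0 ≤ x) (h1 : x ≤ 5 / 9) : cl x = x := by
  unfold cl
  rw [min_eq_left h1, max_eq_right h0]

/-- the admissible function attached to a bounded continuous function -/
noncomputable def cphi (K : ℝ) (φ : ℝ →ᵇ ℝ) (t : ℝ) : ℝ :=
  cl (Real.exp (1000 * K * max t 0) * φ (max t 0))

lemma cphi_adm (K : ℝ) (φ : ℝ →ᵇ ℝ) : Adm (cphi K φ) := by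
  refine ⟨?_, ?_, ?_⟩
  · unfold cphi cl
    have := φ.continuous
    fun_prop
  · intro s
    exact le_max_left _ _
  · intro s
    unfold cphi cl
    exact max_le (by norm_num) (min_le_right _ _)

/-- the contraction -/
noncomputable def Phi (K : ℝ) (hK : 9 ≤ K) (φ : ℝ →ᵇ ℝ) : ℝ →ᵇ ℝ :=
  BoundedContinuousFunction.ofNormedAddCommGroup
    (fun s => Real.exp (-(1000 * K * max s 0)) * Op K (cphi K φ) (max s 0))
    (by
      have h1 : Continuous (fun s : ℝ => Op K (cphi K φ) (max s 0)) :=
        ext_continuous (Op_continuousOn hK (cphi_adm K φ))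
      have h2 : Continuous (fun s : ℝ => Real.exp (-(1000 * K * max s 0))) := by fun_prop
      exact h2.mul h1)
    (5 / 9)
    (by
      intro s
      have hs : (0:ℝ) ≤ max s 0 := le_max_right _ _
      have h1 := Op_nonneg hK (cphi_adm K φ) hs
      have h2 := Op_le hK (cphi_adm K φ) hs
      have h3 : Real.exp (-(1000 * K * max s 0)) ≤ 1 := by
        rw [Real.exp_le_one_iff]
        have : 0 ≤ 1000 * K * max s 0 := by positivity
        linarith
      rw [Real.norm_eq_abs, abs_of_nonneg (mul_nonneg (Real.exp_pos _).le h1)]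
      calc _ ≤ 1 * (5 / 9 : ℝ) := mul_le_mul h3 h2 h1 zero_le_one
        _ = 5 / 9 := one_mul _)

lemma Phi_apply (K : ℝ) (hK : 9 ≤ K) (φ : ℝ →ᵇ ℝ) (s : ℝ) :
    Phi K hK φ s = Real.exp (-(1000 * K * max s 0)) * Op K (cphi K φ) (max s 0) := rfl

lemma Phi_contracting (K : ℝ) (hK : 9 ≤ K) :
    ContractingWith (97 / 100 : ℝ≥0) (Phi K hK) := by
  refine ⟨?_, ?_⟩
  · rw [← NNReal.coe_lt_coe]
    push_cast
    norm_num
  · apply LipschitzWith.of_dist_le_mul
    intro φ ψ
    have hcoe : ((97 / 100 : ℝ≥0) : ℝ) = 97 / 100 := by push_cast; norm_num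
    rw [hcoe, BoundedContinuousFunction.dist_le (by positivity)]
    intro s
    have hs : (0:ℝ) ≤ max s 0 := le_max_right _ _
    have hcd : ∀ t, 0 ≤ t → |cphi K φ t - cphi K ψ t| ≤
        dist φ ψ * Real.exp (1000 * K * t) := by
      intro t ht
      unfold cphi
      rw [max_eq_left ht]
      refine (cl_lip _ _).trans ?_
      rw [← mul_sub, abs_mul, abs_of_pos (Real.exp_pos _), mul_comm]
      apply mul_le_mul_of_nonneg_right _ (Real.exp_pos _).le
      rw [← Real.dist_eq]
      exact BoundedContinuousFunction.dist_coe_le_dist t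
    have h1 := Op_lip hK (cphi_adm K φ) (cphi_adm K ψ) dist_nonneg hcd hs
    rw [Phi_apply, Phi_apply, Real.dist_eq, ← mul_sub, abs_mul, abs_of_pos (Real.exp_pos _)]
    calc Real.exp (-(1000 * K * max s 0)) *
          |Op K (cphi K φ) (max s 0) - Op K (cphi K ψ) (max s 0)|
        ≤ Real.exp (-(1000 * K * max s 0)) *
          (97 / 100 * (dist φ ψ * Real.exp (1000 * K * max s 0))) :=
          mul_le_mul_of_nonneg_left h1 (Real.exp_pos _).le
      _ = 97 / 100 * dist φ ψ *
          (Real.exp (-(1000 * K * max s 0)) * Real.exp (1000 * K * max s 0)) := by ring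
      _ = 97 / 100 * dist φ ψ := by
          rw [← Real.exp_add, neg_add_cancel, Real.exp_zero, mul_one]

/-- existence of the fixed point -/
theorem exists_fix (K : ℝ) (hK : 9 ≤ K) :
    ∃ c : ℝ → ℝ, Adm c ∧ ∀ s, 0 ≤ s → c s = Op K c s := by
  have hC := Phi_contracting K hK
  set φ := hC.fixedPoint with hφ
  have hfix : Phi K hK φ = φ := hC.fixedPoint_isFixedPt
  refine ⟨cphi K φ, cphi_adm K φ, fun s hs => ?_⟩
  have h1 : φ s = Real.exp (-(1000 * K * s)) * Op K (cphi K φ) s := by
    have := Phi_apply K hK φ s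
    rw [hfix, max_eq_left hs] at this
    exact this
  have h2 : cphi K φ s = cl (Real.exp (1000 * K * s) * φ s) := by
    unfold cphi
    rw [max_eq_left hs]
  rw [h2, h1, ← mul_assoc, ← Real.exp_add, add_neg_cancel, Real.exp_zero, one_mul]
  exact cl_eq (Op_nonneg hK (cphi_adm K φ) hs) (Op_le hK (cphi_adm K φ) hs)

end Vale.Agent.Lib.P252
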