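import Vale.Agent.Lib.P252.Fix
import Vale.Agent.Lib.P252.Defs

/-! The ordinary differential equation part. -/

namespace Vale.Agent.Lib.P252

open Set Filter Topology MeasureTheory
open scoped ContDiff

section Main

variable {K : ℝ} {c : ℝ → ℝ}

/-- the forcing term -/
noncomputable def gK (K : ℝ) (c : ℝ → ℝ) (s : ℝ) : ℝ := Gf K (Ac c s) (c s)

lemma gK_continuousOn (hK : 9 ≤ K) (hc : Adm c) : ContinuousOn (gK K c) (Ici 0) :=
  Gf_continuousOn hK (Ac_continuousOn hc) hc.cont.continuousOn (fun _ hx => Ac_nonneg hc hx)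

lemma c_hasDerivAt (hK : 9 ≤ K) (hc : Adm c) (hfix : ∀ s, 0 ≤ s → c s = Op K c s) {s : ℝ}
    (hs : 0 < s) : HasDerivAt c (((1 / 2) * gK K c s - (K / 2 + 1) * c s) / s) s := by
  have h0 : (0:ℝ) ≤ 15 * K / 2 := by linarith
  have h1 : HasDerivAt (fun s => (1 / 2) * T (15 * K / 2) (ext (Gam K c)) s)
      ((1 / 2) * ((ext (Gam K c) s - (15 * K / 2 + 1) * T (15 * K / 2) (ext (Gam K c)) s) / s)) s :=
    (T_hasDerivAt h0 (ext_continuous (Gam_continuousOn hK hc)) hs).const_mul (1 / 2)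
  have h2 : c =ᶠ[𝓝 s] (fun s => (1 / 2) * T (15 * K / 2) (ext (Gam K c)) s) := by
    filter_upwards [lt_mem_nhds hs] with t ht
    rw [T_ext ht.le, hfix t ht.le]
    rfl
  refine (h1.congr_of_eventuallyEq h2).congr_deriv ?_
  rw [T_ext hs.le, ext_eq hs.le]
  have h3 : T (15 * K / 2) (Gam K c) s = 2 * c s := by
    rw [hfix s hs.le]
    unfold Op
    ring
  rw [h3]
  unfold Gam gK
  ring

lemma c_eq_half (hK : 9 ≤ K) (hc : Adm c) (hfix : ∀ s, 0 ≤ s → c s = Op K c s) {s : ℝ}
    (hs : 0 ≤ s) : c s = (1 / 2) * T (K / 2) (gK K c) s := by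
  have hK2 : (0:ℝ) ≤ K / 2 := by linarith
  have hK21 : (0:ℝ) ≤ K / 2 + 1 := by linarith
  rcases eq_or_lt_of_le hs with h0 | h0
  · subst h0
    have h1 := hfix 0 le_rfl
    unfold Op at h1
    rw [T_zero (by linarith)] at h1
    rw [T_zero hK2]
    have hne : (15 * K / 2 + 1) ≠ 0 := by linarith
    have hne' : K / 2 + 1 ≠ 0 := by linarith
    have h2 : Gam K c 0 = 14 * K * c 0 + gK K c 0 := rfl
    rw [h2] at h1
    rw [← mul_div_assoc, eq_div_iff hne'] 
    rw [← mul_div_assoc, eq_div_iff hne] at h1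
    linarith
  · have hcont : ContinuousOn (fun x => x ^ (K / 2 + 1) * c x) (Icc 0 s) :=
      ((Real.continuous_rpow_const hK21).mul hc.cont).continuousOn
    have hder : ∀ x ∈ Ioo 0 s, HasDerivWithinAt (fun x => x ^ (K / 2 + 1) * c x)
        (x ^ (K / 2) * ((1 / 2) * gK K c x)) (Ioi x) x := by
      intro x hx
      have hx0 : 0 < x := hx.1
      have h1 := (Real.hasDerivAt_rpow_const (p := K / 2 + 1) (Or.inl hx0.ne')).mul
        (c_hasDerivAt hK hc hfix hx0)
      refine (h1.congr_deriv ?_).hasDerivWithinAt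
      rw [Real.rpow_add_one hx0.ne', add_sub_cancel_right]
      field_simp
      ring
    have hint : IntervalIntegrable (fun x => x ^ (K / 2) * ((1 / 2) * gK K c x)) volume 0 s := by
      apply ContinuousOn.intervalIntegrable
      rw [uIcc_of_le hs]
      exact (Real.continuous_rpow_const hK2).continuousOn.mul
        (continuousOn_const.mul ((gK_continuousOn hK hc).mono Icc_subset_Ici_self))
    have h1 := intervalIntegral.integral_eq_sub_of_hasDeriv_right_of_le hs hcont hder hint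
    rw [Real.zero_rpow (by linarith), zero_mul, sub_zero, ← T_eq _ h0] at h1
    have h2 := mul_left_cancel₀ (Real.rpow_pos_of_pos h0 _).ne' h1
    rw [← h2, T_const_mul]

/-- the divided difference of the forcing term -/
noncomputable def hK' (K : ℝ) (c : ℝ → ℝ) (s : ℝ) : ℝ :=
  (2 / rho c s) * (-2 * (K + 3) / (K * (K + 2 * Ac c s)) +
    (c s * (2 + 3 * (K + 3) / (K + 2 * Ac c s)) +
      c s ^ 2 * (-(K + 1) + 2 * (K + 3) * Ac c s / (K + 2 * Ac c s))))

lemma gK_eq (hK : 9 ≤ K) (hc : Adm c) {s : ℝ} (hs : 0 ≤ s) :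
    gK K c s = (2 * K + 3) / K + s * hK' K c s := by
  unfold gK Gf hK'
  have hr := rho_pos hc hs
  have hA := Ac_nonneg hc hs
  have hA2 : Ac c s = 2 * s / rho c s := rfl
  have hD : K + 2 * Ac c s ≠ 0 := by
    have : 0 < K + 2 * Ac c s := by linarith
    exact this.ne'
  have hK0 : K ≠ 0 := by linarith
  have e1 : s * (2 / rho c s) = Ac c s := by rw [hA2]; ring
  rw [← mul_assoc, e1]
  field_simp
  ring

lemma hK'_contDiffOn (hK : 9 ≤ K) (hc : Adm c) {m : ℕ} (hcm : ContDiffOn ℝ m c (Ici 0)) :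
    ContDiffOn ℝ m (hK' K c) (Ici 0) := by
  have hrho : ContDiffOn ℝ m (rho c) (Ici 0) := by
    have h1 : ContDiffOn ℝ (m + 1) (rho c) (Ici 0) :=
      contDiffOn_succ_of (g' := fun s => 1 - c s)
        (fun s _ => (rho_hasDerivAt hc.cont s).hasDerivWithinAt)
        (contDiffOn_const.sub hcm)
    exact h1.of_le (by exact_mod_cast Nat.le_succ m)
  have hAc : ContDiffOn ℝ m (Ac c) (Ici 0) := by
    unfold Ac
    exact (contDiffOn_const.mul contDiffOn_id).div hrho (fun x hx => (rho_pos hc hx).ne')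
  have hden : ContDiffOn ℝ m (fun s => K + 2 * Ac c s) (Ici 0) :=
    contDiffOn_const.add (contDiffOn_const.mul hAc)
  have hne : ∀ x ∈ Ici (0:ℝ), K + 2 * Ac c x ≠ 0 := fun x hx => by
    have := Ac_nonneg hc hx
    have : 0 < K + 2 * Ac c x := by linarith
    exact this.ne'
  have hKne : K ≠ 0 := by linarith
  unfold hK'
  refine (contDiffOn_const.div hrho (fun x hx => (rho_pos hc hx).ne')).mul
    ((contDiffOn_const.div (contDiffOn_const.mul hden)
      (fun x hx => mul_ne_zero hKne (hne x hx))).add ((hcm.mul (contDiffOn_const.add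
        (contDiffOn_const.div hden hne))).add ((hcm.pow 2).mul (contDiffOn_const.add
          ((contDiffOn_const.mul hAc).div hden hne)))))

/-- the derivative of `c` -/
noncomputable def c1 (K : ℝ) (c : ℝ → ℝ) (s : ℝ) : ℝ :=
  (1 / 2) * (hK' K c s - (K / 2 + 1) * T (K / 2 + 1) (hK' K c) s)

lemma hK'_continuousOn (hK : 9 ≤ K) (hc : Adm c) : ContinuousOn (hK' K c) (Ici 0) :=
  (hK'_contDiffOn (m := 0) hK hc (contDiffOn_zero.2 hc.cont.continuousOn)).continuousOn

lemma c_repr (hK : 9 ≤ K) (hc : Adm c) (hfix : ∀ s, 0 ≤ s → c s = Op K c s) {s : ℝ}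
    (hs : 0 ≤ s) :
    c s = (2 * K + 3) / (K * (K + 2)) + (1 / 2) * (s * T (K / 2 + 1) (hK' K c) s) := by
  have hK2 : (0:ℝ) ≤ K / 2 := by linarith
  rw [c_eq_half hK hc hfix hs]
  have e1 : T (K / 2) (gK K c) s = T (K / 2) (fun x => (2 * K + 3) / K + x * hK' K c x) s :=
    T_congr hs (fun x hx => gK_eq hK hc hx)
  have e2 : ContinuousOn (fun x => x * hK' K c x) (Ici 0) :=
    continuousOn_id.mul (hK'_continuousOn hK hc)
  rw [e1, T_add (g := fun _ => (2 * K + 3) / K) hK2 continuousOn_const e2 hs, T_const hK2,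
    T_id_mul hK2]
  have hK0 : K ≠ 0 := by linarith
  have hK1 : K + 2 ≠ 0 := by linarith
  field_simp

lemma c_hasDerivWithinAt (hK : 9 ≤ K) (hc : Adm c) (hfix : ∀ s, 0 ≤ s → c s = Op K c s) {s : ℝ}
    (hs : 0 ≤ s) : HasDerivWithinAt c (c1 K c s) (Ici 0) s := by
  have hK21 : (0:ℝ) ≤ K / 2 + 1 := by linarith
  have h1 := ((sT_hasDerivWithinAt hK21 (hK'_continuousOn hK hc) hs).const_mul (1 / 2)).const_add
    ((2 * K + 3) / (K * (K + 2)))
  exact h1.congr (fun x hx => c_repr hK hc hfix hx) (c_repr hK hc hfix hs)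

lemma c_smooth (hK : 9 ≤ K) (hc : Adm c) (hfix : ∀ s, 0 ≤ s → c s = Op K c s) (m : ℕ) :
    ContDiffOn ℝ m c (Ici 0) := by
  induction m with
  | zero => exact contDiffOn_zero.2 hc.cont.continuousOn
  | succ m ih =>
    have h1 := hK'_contDiffOn hK hc ih
    have h2 : ContDiffOn ℝ m (c1 K c) (Ici 0) := by
      unfold c1
      exact contDiffOn_const.mul (h1.sub (contDiffOn_const.mul
        (T_contDiffOn m (by linarith) h1)))
    have h3 := contDiffOn_succ_of (fun s hs => c_hasDerivWithinAt hK hc hfix hs) h2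
    exact_mod_cast h3

lemma c1_eq (hK : 9 ≤ K) (hc : Adm c) (hfix : ∀ s, 0 ≤ s → c s = Op K c s) {s : ℝ}
    (hs : 0 ≤ s) : 2 * s * c1 K c s = gK K c s - (K + 2) * c s := by
  have h1 := c_repr hK hc hfix hs
  have h2 := gK_eq hK hc hs
  have hK0 : K ≠ 0 := by linarith
  have hK1 : K + 2 ≠ 0 := by linarith
  have h3 : s * T (K / 2 + 1) (hK' K c) s = 2 * (c s - (2 * K + 3) / (K * (K + 2))) := by
    rw [h1]; ring
  have h4 : 2 * s * c1 K c s = s * hK' K c s
      - (K / 2 + 1) * (s * T (K / 2 + 1) (hK' K c) s) := by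
    unfold c1; ring
  rw [h4, h3, h2]
  field_simp
  ring

end Main

/-- the algebraic identity -/
lemma alg_ode {K s r c d : ℝ} (hK : 9 ≤ K) (hs : 0 ≤ s) (hr : 0 < r)
    (h : 2 * s * d = Gf K (2 * s / r) c - (K + 2) * c) :
    2 * s * (d / r - c * (1 - c) / r ^ 2) = -2 * (c / r) + (1 + 2 * s * (c / r)) *
    (-(K * (c / r)) + 1 / r + (K + 3) * (1 / r) * (1 + 4 * s * (c / r)) / (K + 4 * s * (1 / r))) := by
  have e1 : 2 * s * (d / r - c * (1 - c) / r ^ 2) = (2 * s * d) / r - 2 * s * (c * (1 - c)) / r ^ 2 := by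
    ring
  have hden : K * r + 4 * s ≠ 0 := by
    have : 0 < K * r := mul_pos (by linarith) hr
    have : 0 < K * r + 4 * s := by linarith
    exact this.ne'
  have e2 : K + 2 * (2 * s / r) = (K * r + 4 * s) / r := by
    field_simp
    ring
  have e3 : K + 4 * s * (1 / r) = (K * r + 4 * s) / r := by
    field_simp
  rw [e1, h]
  unfold Gf
  rw [e2, e3]
  field_simp
  ring

theorem odePart : OdePart := by
  intro k hk
  have hK : (9:ℝ) ≤ (k:ℝ) := by exact_mod_cast hk
  obtain ⟨c, hc, hfix⟩ := exists_fix (k:ℝ) hK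
  set K : ℝ := (k:ℝ) with hKdef
  have hrhom : ∀ m : ℕ, ContDiffOn ℝ m (rho c) (Ici 0) := by
    intro m
    have h1 : ContDiffOn ℝ (m + 1) (rho c) (Ici 0) :=
      contDiffOn_succ_of (g' := fun s => 1 - c s)
        (fun s _ => (rho_hasDerivAt hc.cont s).hasDerivWithinAt)
        (contDiffOn_const.sub (c_smooth hK hc hfix m))
    exact h1.of_le (by exact_mod_cast Nat.le_succ m)
  have ham : ∀ m : ℕ, ContDiffOn ℝ m (fun s => 1 / rho c s) (Ici 0) := fun m =>
    contDiffOn_const.div (hrhom m) (fun x hx => (rho_pos hc hx).ne')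
  set a : ℝ → ℝ := fun s => 1 / rho c s with ha
  have hacont : ContinuousOn a (Ici 0) := (ham 0).continuousOn
  set L : ℝ → ℝ := fun s => s * T 0 a s with hL
  have hLder : ∀ s, 0 ≤ s → HasDerivWithinAt L (a s) (Ici 0) s := by
    intro s hs
    have h1 := sT_hasDerivWithinAt (le_refl (0:ℝ)) hacont hs
    rw [zero_mul, sub_zero] at h1
    exact h1
  have hLm : ∀ m : ℕ, ContDiffOn ℝ m L (Ici 0) := by
    intro m
    have h1 : ContDiffOn ℝ (m + 1) L (Ici 0) := contDiffOn_succ_of hLder (ham m)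
    exact h1.of_le (by exact_mod_cast Nat.le_succ m)
  refine ⟨fun s => Real.exp (L s), a, fun s => c s / rho c s,
    fun s => c1 K c s / rho c s - c s * (1 - c s) / rho c s ^ 2, ?_⟩
  refine ⟨?_, ?_, ?_, ?_, ?_, ?_, ?_, ?_⟩
  · rw [contDiffOn_infty]
    intro m
    exact (hLm m).exp
  · intro s _
    exact Real.exp_pos _
  · intro s hs
    exact div_pos one_pos (rho_pos hc hs)
  · intro s hs
    exact div_nonneg (hc.nonneg s) (rho_pos hc hs).le
  · intro s hs
    refine ((hLder s hs).exp).congr_deriv ?_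
    ring
  · intro s hs
    have h1 := (hasDerivWithinAt_const s (Ici 0) (1:ℝ)).div
      (rho_hasDerivAt hc.cont s).hasDerivWithinAt (rho_pos hc hs).ne'
    refine h1.congr_deriv ?_
    have hr := (rho_pos hc hs).ne'
    simp only [ha]
    field_simp
    ring
  · intro s hs
    have h1 := (c_hasDerivWithinAt hK hc hfix hs).div
      (rho_hasDerivAt hc.cont s).hasDerivWithinAt (rho_pos hc hs).ne'
    refine h1.congr_deriv ?_
    have hr := (rho_pos hc hs).ne'
    field_simp
  · intro s hs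
    have h1 := c1_eq hK hc hfix hs
    exact alg_ode hK hs (rho_pos hc hs) h1

end Vale.Agent.Lib.P252
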