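import Vale.Agent.Lib.P252.PdeGrad

/-!
# PDE verification: the function `sqrt (f(|x'|²/2)² + y²)` solves the affine maximal equation
-/

namespace Vale.Agent.Lib.P252

open Matrix
open scoped ContDiff Topology

variable {k : ℕ}

section Hess

variable {f a b b' : ℝ → ℝ} (h : OdeData k f a b b')
include h

theorem inside_pos (x : Fin (k + 1) → ℝ) : 0 < f (qf k x) ^ 2 + x (Fin.last k) ^ 2 := by
  have := h.f_pos _ (qf_nonneg x)
  positivity

theorem uf_pos (x : Fin (k + 1) → ℝ) : 0 < uf k f x := Real.sqrt_pos.2 (inside_pos h x)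

theorem uf_sq (x : Fin (k + 1) → ℝ) : uf k f x ^ 2 = f (qf k x) ^ 2 + x (Fin.last k) ^ 2 :=
  Real.sq_sqrt (inside_pos h x).le

theorem hasGrad_f (x : Fin (k + 1) → ℝ) :
    HasGrad (fun z => f (qf k z)) ((a (qf k x) * f (qf k x)) • xi x) x :=
  hasGrad_comp_qf (h.deriv_f _ (qf_nonneg x))

theorem hasGrad_a (x : Fin (k + 1) → ℝ) :
    HasGrad (fun z => a (qf k z)) ((a (qf k x) * (b (qf k x) - a (qf k x))) • xi x) x :=
  hasGrad_comp_qf (h.deriv_a _ (qf_nonneg x))

theorem hasGrad_b (x : Fin (k + 1) → ℝ) :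
    HasGrad (fun z => b (qf k z)) (b' (qf k x) • xi x) x :=
  hasGrad_comp_qf (h.deriv_b _ (qf_nonneg x))

/-- first coefficient of the gradient of `u` -/
theorem hasGrad_uf (x : Fin (k + 1) → ℝ) :
    HasGrad (uf k f) ((a (qf k x) * f (qf k x) ^ 2 / uf k f x) • xi x +
      (x (Fin.last k) / uf k f x) • eta) x := by
  have h1 := ((hasGrad_f h x).mul (hasGrad_f h x)).add ((hasGrad_last x).mul (hasGrad_last x))
  have h2 : HasDerivAt Real.sqrt (1 / (2 * Real.sqrt (f (qf k x) * f (qf k x) +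
      x (Fin.last k) * x (Fin.last k)))) (f (qf k x) * f (qf k x) +
      x (Fin.last k) * x (Fin.last k)) := by
    apply Real.hasDerivAt_sqrt
    have := inside_pos h x
    nlinarith
  have h3 := HasGrad.comp h2 h1
  have e1 : (fun z : Fin (k + 1) → ℝ => Real.sqrt (f (qf k z) * f (qf k z) +
      z (Fin.last k) * z (Fin.last k))) = uf k f := by
    funext z
    unfold uf
    congr 1
    ring
  have e2 : Real.sqrt (f (qf k x) * f (qf k x) + x (Fin.last k) * x (Fin.last k)) =
      uf k f x := congrFun e1 x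
  rw [e1, e2] at h3
  refine h3.congr ?_
  have hu := (uf_pos h x).ne'
  funext i
  simp only [Pi.add_apply, Pi.smul_apply, smul_eq_mul]
  field_simp
  ring

theorem hasGrad_c1 (x : Fin (k + 1) → ℝ) :
    HasGrad (fun z => a (qf k z) * f (qf k z) ^ 2 / uf k f z)
      ((a (qf k x) * f (qf k x) ^ 2 * (a (qf k x) + b (qf k x)) / uf k f x -
          a (qf k x) ^ 2 * f (qf k x) ^ 4 / uf k f x ^ 3) • xi x +
        (-(a (qf k x) * f (qf k x) ^ 2 * x (Fin.last k) / uf k f x ^ 3)) • eta) x := by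
  have hu := (uf_pos h x).ne'
  have h1 := ((hasGrad_a h x).mul ((hasGrad_f h x).mul (hasGrad_f h x))).div (hasGrad_uf h x) hu
  have e1 : (fun z : Fin (k + 1) → ℝ => a (qf k z) * (f (qf k z) * f (qf k z)) / uf k f z) =
      fun z => a (qf k z) * f (qf k z) ^ 2 / uf k f z := by
    funext z; ring
  rw [e1] at h1
  refine h1.congr ?_
  funext i
  simp only [Pi.add_apply, Pi.sub_apply, Pi.smul_apply, smul_eq_mul]
  field_simp
  ring

theorem hasGrad_c2 (x : Fin (k + 1) → ℝ) :
    HasGrad (fun z => z (Fin.last k) / uf k f z)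
      ((-(a (qf k x) * f (qf k x) ^ 2 * x (Fin.last k) / uf k f x ^ 3)) • xi x +
        (f (qf k x) ^ 2 / uf k f x ^ 3) • eta) x := by
  have hu := (uf_pos h x).ne'
  have hsq := uf_sq h x
  have h1 := (hasGrad_last x).div (hasGrad_uf h x) hu
  refine h1.congr ?_
  funext i
  simp only [Pi.add_apply, Pi.sub_apply, Pi.smul_apply, smul_eq_mul]
  have hf : f (qf k x) ^ 2 = uf k f x ^ 2 - x (Fin.last k) ^ 2 := by linarith
  rw [hf]
  field_simp
  ring

theorem partial_uf (i : Fin (k + 1)) :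
    (fun y => fderiv ℝ (uf k f) y (Pi.single i 1)) = fun z =>
      (a (qf k z) * f (qf k z) ^ 2 / uf k f z) * xi z i + (z (Fin.last k) / uf k f z) * eta i := by
  funext z
  rw [(hasGrad_uf h z).fderiv_single i]
  simp

/-- The Hessian of `u`. -/
theorem hess_uf (x : Fin (k + 1) → ℝ) :
    hess (uf k f) x = M5 x (a (qf k x) * f (qf k x) ^ 2 / uf k f x)
      (a (qf k x) * f (qf k x) ^ 2 * (a (qf k x) + b (qf k x)) / uf k f x -
          a (qf k x) ^ 2 * f (qf k x) ^ 4 / uf k f x ^ 3)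
      (-(a (qf k x) * f (qf k x) ^ 2 * x (Fin.last k) / uf k f x ^ 3))
      (-(a (qf k x) * f (qf k x) ^ 2 * x (Fin.last k) / uf k f x ^ 3))
      (f (qf k x) ^ 2 / uf k f x ^ 3) := by
  ext i j
  unfold hess
  rw [Matrix.of_apply, partial_uf h i]
  have h1 := ((hasGrad_c1 h x).mul (hasGrad_xi i x)).add
    ((hasGrad_c2 h x).mul (hasGrad_const (eta i) x))
  rw [h1.fderiv_single j, M5_apply]
  simp only [Pi.add_apply, Pi.smul_apply, smul_eq_mul, Pi.zero_apply]
  ring

/-- The Hessian of `u` in factored form. -/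
theorem hess_uf' (x : Fin (k + 1) → ℝ) :
    hess (uf k f) x = M5 x (a (qf k x) * f (qf k x) ^ 2 / uf k f x)
      (a (qf k x) * f (qf k x) ^ 2 / uf k f x * b (qf k x) +
        f (qf k x) ^ 2 / uf k f x ^ 3 * (-(x (Fin.last k) * a (qf k x))) ^ 2)
      (f (qf k x) ^ 2 / uf k f x ^ 3 * (-(x (Fin.last k) * a (qf k x))))
      (f (qf k x) ^ 2 / uf k f x ^ 3 * (-(x (Fin.last k) * a (qf k x))))
      (f (qf k x) ^ 2 / uf k f x ^ 3) := by
  have hu := (uf_pos h x).ne'
  have hsq := uf_sq h x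
  have hf : x (Fin.last k) ^ 2 = uf k f x ^ 2 - f (qf k x) ^ 2 := by linarith
  rw [hess_uf h]
  congr 1
  · rw [neg_sq, mul_pow, hf]
    field_simp
    ring
  · ring
  · ring

theorem posDef_hess_uf (x : Fin (k + 1) → ℝ) : (hess (uf k f) x).PosDef := by
  rw [hess_uf' h]
  have hu := uf_pos h x
  have hf := h.f_pos _ (qf_nonneg x)
  have ha := h.a_pos _ (qf_nonneg x)
  apply posDef_M5_factored
  · positivity
  · exact h.b_nonneg _ (qf_nonneg x)
  · positivity

theorem det_hess_uf (x : Fin (k + 1) → ℝ) : (hess (uf k f) x).det =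
    (a (qf k x) * f (qf k x) ^ 2 / uf k f x) ^ k * (f (qf k x) ^ 2 / uf k f x ^ 3) *
      (1 + b (qf k x) * (2 * qf k x)) := by
  rw [hess_uf' h, det_M5_factored]

theorem L_pos (x : Fin (k + 1) → ℝ) : 0 < 1 + 2 * qf k x * b (qf k x) := by
  have h1 := h.b_nonneg _ (qf_nonneg x)
  have h2 := qf_nonneg x
  have : 0 ≤ 2 * qf k x * b (qf k x) := by positivity
  linarith

/-- the function `w` in explicit form -/
theorem wfun_uf : wfun (uf k f) = fun x => Real.exp
    (-(((k : ℝ) + 2) / (k + 3)) * (k * Real.log (a (qf k x)) +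
      (2 * k + 2) * Real.log (f (qf k x)) + Real.log (1 + 2 * qf k x * b (qf k x))) +
      (k + 2) * Real.log (uf k f x)) := by
  funext x
  have hu := uf_pos h x
  have hf := h.f_pos _ (qf_nonneg x)
  have ha := h.a_pos _ (qf_nonneg x)
  have hL := L_pos h x
  have hb := h.b_nonneg _ (qf_nonneg x)
  unfold wfun
  rw [Real.rpow_def_of_pos (posDef_hess_uf h x).det_pos, det_hess_uf h]
  congr 1
  have hL' : 0 < 1 + b (qf k x) * (2 * qf k x) := by
    have : 1 + b (qf k x) * (2 * qf k x) = 1 + 2 * qf k x * b (qf k x) := by ring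
    rw [this]; exact hL
  rw [Real.log_mul (by positivity) hL'.ne', Real.log_mul (by positivity) (by positivity),
    Real.log_pow, Real.log_div (by positivity) hu.ne', Real.log_mul ha.ne' (by positivity),
    Real.log_div (by positivity) (by positivity), Real.log_pow, Real.log_pow]
  have e : b (qf k x) * (2 * qf k x) = 2 * qf k x * b (qf k x) := by ring
  rw [e]
  push_cast
  have h3 : (k : ℝ) + 3 ≠ 0 := by positivity
  have h4 : (k : ℝ) + 1 + 2 = k + 3 := by ring
  rw [h4]
  field_simp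
  ring

end Hess

end Vale.Agent.Lib.P252
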