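import Vale.Agent.Lib.P252.PdeLin

/-!
# Calculus for the PDE verification: gradients of the functions involved
-/

namespace Vale.Agent.Lib.P252

open Matrix
open scoped ContDiff Topology

variable {k : ℕ}

/-- The linear functional with coefficient vector `g`. -/
noncomputable def gl (g : Fin (k + 1) → ℝ) : (Fin (k + 1) → ℝ) →L[ℝ] ℝ :=
  ∑ i, g i • ContinuousLinearMap.proj (R := ℝ) i

theorem gl_apply (g v : Fin (k + 1) → ℝ) : gl g v = ∑ i, g i * v i := by
  simp [gl]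

theorem gl_single (g : Fin (k + 1) → ℝ) (i : Fin (k + 1)) : gl g (Pi.single i 1) = g i := by
  rw [gl_apply, Finset.sum_eq_single i]
  · simp
  · intro j _ hj
    simp [hj]
  · simp

/-- `g` is the gradient of `F` at `x`. -/
def HasGrad (F : (Fin (k + 1) → ℝ) → ℝ) (g : Fin (k + 1) → ℝ) (x : Fin (k + 1) → ℝ) : Prop :=
  HasFDerivAt F (gl g) x

theorem HasGrad.fderiv_single {F : (Fin (k + 1) → ℝ) → ℝ} {g x : Fin (k + 1) → ℝ}
    (h : HasGrad F g x) (i : Fin (k + 1)) : fderiv ℝ F x (Pi.single i 1) = g i := by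
  rw [HasFDerivAt.fderiv h, gl_single]

theorem HasGrad.congr {F : (Fin (k + 1) → ℝ) → ℝ} {g g' x : Fin (k + 1) → ℝ}
    (h : HasGrad F g x) (e : g = g') : HasGrad F g' x := e ▸ h

theorem HasGrad.of_gl {F : (Fin (k + 1) → ℝ) → ℝ} {φ : (Fin (k + 1) → ℝ) →L[ℝ] ℝ}
    {g x : Fin (k + 1) → ℝ} (h : HasFDerivAt F φ x) (e : φ = gl g) : HasGrad F g x := by
  unfold HasGrad; rwa [← e]

theorem HasGrad.add {F G : (Fin (k + 1) → ℝ) → ℝ} {g h x : Fin (k + 1) → ℝ}
    (hF : HasGrad F g x) (hG : HasGrad G h x) : HasGrad (fun z => F z + G z) (g + h) x := by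
  refine HasGrad.of_gl (HasFDerivAt.add hF hG) ?_
  ext v
  simp [gl_apply, add_mul, Finset.sum_add_distrib]

theorem HasGrad.mul {F G : (Fin (k + 1) → ℝ) → ℝ} {g h x : Fin (k + 1) → ℝ}
    (hF : HasGrad F g x) (hG : HasGrad G h x) :
    HasGrad (fun z => F z * G z) (F x • h + G x • g) x := by
  refine HasGrad.of_gl (HasFDerivAt.mul hF hG) ?_
  ext v
  simp [gl_apply, add_mul, Finset.sum_add_distrib, Finset.mul_sum, mul_assoc]

theorem hasGrad_const (c : ℝ) (x : Fin (k + 1) → ℝ) : HasGrad (fun _ => c) 0 x := by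
  refine HasGrad.of_gl (hasFDerivAt_const c x) ?_
  ext v
  simp [gl_apply]

theorem HasGrad.const_mul {F : (Fin (k + 1) → ℝ) → ℝ} {g x : Fin (k + 1) → ℝ}
    (hF : HasGrad F g x) (c : ℝ) : HasGrad (fun z => c * F z) (c • g) x :=
  ((hasGrad_const c x).mul hF).congr (by simp)

theorem HasGrad.neg {F : (Fin (k + 1) → ℝ) → ℝ} {g x : Fin (k + 1) → ℝ}
    (hF : HasGrad F g x) : HasGrad (fun z => - F z) (-g) x := by
  have := hF.const_mul (-1)
  refine HasGrad.congr (F := fun z => - F z) ?_ (show (-1 : ℝ) • g = -g by simp)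
  convert this using 1
  funext z; ring

theorem HasGrad.comp {F : (Fin (k + 1) → ℝ) → ℝ} {g x : Fin (k + 1) → ℝ} {φ : ℝ → ℝ} {φ' : ℝ}
    (hφ : HasDerivAt φ φ' (F x)) (hF : HasGrad F g x) :
    HasGrad (fun z => φ (F z)) (φ' • g) x := by
  refine HasGrad.of_gl (hφ.comp_hasFDerivAt x hF) ?_
  ext v
  simp [gl_apply, Finset.mul_sum, mul_assoc]

theorem HasGrad.div {F G : (Fin (k + 1) → ℝ) → ℝ} {g h x : Fin (k + 1) → ℝ}
    (hF : HasGrad F g x) (hG : HasGrad G h x) (h0 : G x ≠ 0) :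
    HasGrad (fun z => F z / G z) ((G x)⁻¹ • g - (F x / G x ^ 2) • h) x := by
  have h1 : HasGrad (fun z => (G z)⁻¹) (-(G x ^ 2)⁻¹ • h) x :=
    HasGrad.comp (hasDerivAt_inv h0) hG
  have h2 := hF.mul h1
  refine HasGrad.congr (F := fun z => F z / G z) ?_
    (show F x • (-(G x ^ 2)⁻¹ • h) + (G x)⁻¹ • g = (G x)⁻¹ • g - (F x / G x ^ 2) • h by
      rw [smul_smul, div_eq_mul_inv, mul_neg, neg_smul]; abel)
  simpa [div_eq_mul_inv] using h2

theorem hasGrad_coord (i : Fin (k + 1)) (x : Fin (k + 1) → ℝ) :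
    HasGrad (fun z => z i) (Pi.single i 1) x := by
  refine HasGrad.of_gl (hasFDerivAt_apply i x) ?_
  ext v
  rw [gl_apply, Finset.sum_eq_single i]
  · simp
  · intro j _ hj
    simp [hj]
  · simp

theorem hasGrad_last (x : Fin (k + 1) → ℝ) : HasGrad (fun z => z (Fin.last k)) eta x :=
  hasGrad_coord _ x

theorem hasGrad_xi (i : Fin (k + 1)) (x : Fin (k + 1) → ℝ) :
    HasGrad (fun z => xi z i) (PP i) x := by
  by_cases h : i = Fin.last k
  · have e1 : (fun z : Fin (k + 1) → ℝ => xi z i) = fun _ => 0 := by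
      funext z; simp [xi, h]
    have e2 : (PP : Matrix (Fin (k + 1)) (Fin (k + 1)) ℝ) i = 0 := by
      funext j
      simp [PP, diagonal_apply, h]
    rw [e1, e2]
    exact hasGrad_const 0 x
  · have e1 : (fun z : Fin (k + 1) → ℝ => xi z i) = fun z => z i := by
      funext z; simp [xi, h]
    have e2 : (PP : Matrix (Fin (k + 1)) (Fin (k + 1)) ℝ) i = Pi.single i 1 := by
      funext j
      by_cases hj : j = i
      · subst hj; simp [PP, h]
      · simp [PP, Ne.symm hj, hj]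
    rw [e1, e2]
    exact hasGrad_coord i x

theorem hasGrad_qf (x : Fin (k + 1) → ℝ) : HasGrad (qf k) (xi x) x := by
  have h1 : HasFDerivAt (fun z : Fin (k + 1) → ℝ => ∑ i : Fin k, z i.castSucc ^ 2)
      (∑ i : Fin k, (2 * x i.castSucc) • (ContinuousLinearMap.proj (R := ℝ) i.castSucc :
        (Fin (k + 1) → ℝ) →L[ℝ] ℝ)) x := by
    apply HasFDerivAt.fun_sum
    intro i _
    have h2 : HasFDerivAt (fun z : Fin (k + 1) → ℝ => z i.castSucc)
        (ContinuousLinearMap.proj (R := ℝ) i.castSucc) x := hasFDerivAt_apply _ _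
    simpa using h2.pow 2
  have h3 := h1.mul_const (2⁻¹ : ℝ)
  refine HasGrad.of_gl (F := qf k) (φ := (2⁻¹ : ℝ) • ∑ i : Fin k,
    (2 * x i.castSucc) • (ContinuousLinearMap.proj (R := ℝ) i.castSucc :
      (Fin (k + 1) → ℝ) →L[ℝ] ℝ)) ?_ ?_
  · have e : qf k = fun z : Fin (k + 1) → ℝ => (∑ i : Fin k, z i.castSucc ^ 2) * 2⁻¹ := by
      funext z; simp [qf, div_eq_mul_inv]
    rw [e]
    exact h3
  · ext v
    rw [gl_apply, Fin.sum_univ_castSucc]
    simp [xi, Finset.mul_sum]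
    apply Finset.sum_congr rfl
    intro i _
    have h4 := Fin.castSucc_ne_last i
    ring

theorem qf_nonneg (x : Fin (k + 1) → ℝ) : 0 ≤ qf k x := by
  unfold qf
  have : 0 ≤ ∑ i : Fin k, x i.castSucc ^ 2 := Finset.sum_nonneg fun _ _ => sq_nonneg _
  linarith

theorem hasGrad_comp_qf {φ : ℝ → ℝ} {φ' : ℝ} {x : Fin (k + 1) → ℝ}
    (h : HasDerivWithinAt φ φ' (Set.Ici 0) (qf k x)) :
    HasGrad (fun z => φ (qf k z)) (φ' • xi x) x := by
  have h1 : HasFDerivWithinAt (qf k) (gl (xi x)) Set.univ x :=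
    HasFDerivAt.hasFDerivWithinAt (hasGrad_qf x)
  have h2 := h.comp_hasFDerivWithinAt x h1 (fun z _ => qf_nonneg z)
  rw [hasFDerivWithinAt_univ] at h2
  refine HasGrad.of_gl h2 ?_
  ext v
  simp [gl_apply, Finset.mul_sum, mul_assoc]

end Vale.Agent.Lib.P252
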