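import Vale.Agent.Lib.P252.Defs

/-!
# Linear algebra for the PDE verification: the span of `P`, `ξξᵀ`, `ξηᵀ`, `ηξᵀ`, `ηηᵀ`
-/

namespace Vale.Agent.Lib.P252

open Matrix

variable {k : ℕ}

/-- the projection of `x` to the first `k` coordinates -/
noncomputable def xi (x : Fin (k + 1) → ℝ) : Fin (k + 1) → ℝ :=
  fun i => if i = Fin.last k then 0 else x i

/-- the last unit vector -/
noncomputable def eta : Fin (k + 1) → ℝ := Pi.single (Fin.last k) 1

/-- the projection matrix to the first `k` coordinates -/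
noncomputable def PP : Matrix (Fin (k + 1)) (Fin (k + 1)) ℝ :=
  Matrix.diagonal fun i => if i = Fin.last k then 0 else 1

/-- combination of the five matrices -/
noncomputable def M5 (x : Fin (k + 1) → ℝ) (c0 c1 c2 c3 c4 : ℝ) :
    Matrix (Fin (k + 1)) (Fin (k + 1)) ℝ :=
  c0 • PP + c1 • vecMulVec (xi x) (xi x) + c2 • vecMulVec (xi x) eta +
    c3 • vecMulVec eta (xi x) + c4 • vecMulVec eta eta

theorem M5_apply (x : Fin (k + 1) → ℝ) (c0 c1 c2 c3 c4 : ℝ) (i j : Fin (k + 1)) :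
    M5 x c0 c1 c2 c3 c4 i j = c0 * PP i j + c1 * (xi x i * xi x j) + c2 * (xi x i * eta j) +
      c3 * (eta i * xi x j) + c4 * (eta i * eta j) := by
  simp [M5, vecMulVec_apply]

theorem eta_apply (i : Fin (k + 1)) : (eta : Fin (k + 1) → ℝ) i = if i = Fin.last k then 1 else 0 := by
  unfold eta
  rw [Pi.single_apply]

theorem xi_dot_xi (x : Fin (k + 1) → ℝ) : xi x ⬝ᵥ xi x = 2 * qf k x := by
  unfold dotProduct qf xi
  rw [Fin.sum_univ_castSucc]
  simp only [Fin.castSucc_ne_last, if_false, if_true, mul_zero, add_zero]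
  rw [mul_div_cancel₀ _ (two_ne_zero)]
  exact Finset.sum_congr rfl fun i _ => (sq _).symm

theorem xi_dot_eta (x : Fin (k + 1) → ℝ) : xi x ⬝ᵥ eta = 0 := by
  unfold dotProduct
  rw [Fin.sum_univ_castSucc]
  simp [xi, eta_apply]

theorem eta_dot_xi (x : Fin (k + 1) → ℝ) : eta ⬝ᵥ xi x = 0 := by
  rw [dotProduct_comm, xi_dot_eta]

theorem eta_dot_eta : (eta : Fin (k + 1) → ℝ) ⬝ᵥ eta = 1 := by
  unfold dotProduct
  rw [Fin.sum_univ_castSucc]
  simp [eta_apply]

theorem PP_mulVec_xi (x : Fin (k + 1) → ℝ) : PP *ᵥ xi x = xi x := by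
  funext i
  rw [PP, mulVec_diagonal]
  unfold xi
  split_ifs <;> simp

theorem PP_mulVec_eta : PP *ᵥ (eta : Fin (k + 1) → ℝ) = 0 := by
  funext i
  rw [PP, mulVec_diagonal, eta_apply]
  split_ifs <;> simp

theorem xi_vecMul_PP (x : Fin (k + 1) → ℝ) : xi x ᵥ* PP = xi x := by
  funext i
  rw [PP, vecMul_diagonal]
  unfold xi
  split_ifs <;> simp

theorem eta_vecMul_PP : (eta : Fin (k + 1) → ℝ) ᵥ* PP = 0 := by
  funext i
  rw [PP, vecMul_diagonal, eta_apply]
  split_ifs <;> simp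

theorem PP_mul_PP : (PP : Matrix (Fin (k + 1)) (Fin (k + 1)) ℝ) * PP = PP := by
  unfold PP
  rw [diagonal_mul_diagonal]
  congr 1
  funext i
  split_ifs <;> simp

theorem one_eq (x : Fin (k + 1) → ℝ) : (1 : Matrix (Fin (k + 1)) (Fin (k + 1)) ℝ) =
    M5 x 1 0 0 0 1 := by
  ext i j
  rw [M5_apply, one_apply, PP, diagonal_apply, eta_apply, eta_apply]
  by_cases h : i = j
  · subst h
    by_cases h2 : i = Fin.last k <;> simp [h2]
  · by_cases h2 : i = Fin.last k
    · have h3 : ¬ j = Fin.last k := fun h3 => h (h2.trans h3.symm)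
      simp [h, h3]
    · simp [h, h2]

theorem vv_mul (u v w z : Fin (k + 1) → ℝ) :
    vecMulVec u v * vecMulVec w z = (v ⬝ᵥ w) • vecMulVec u z := by
  rw [vecMulVec_mul_vecMulVec, vecMulVec_smul]

theorem PP_mul_xi (x w : Fin (k + 1) → ℝ) : PP * vecMulVec (xi x) w = vecMulVec (xi x) w := by
  rw [mul_vecMulVec, PP_mulVec_xi]

theorem PP_mul_eta (w : Fin (k + 1) → ℝ) : PP * vecMulVec eta w = 0 := by
  rw [mul_vecMulVec, PP_mulVec_eta, zero_vecMulVec]

theorem xi_mul_PP (x w : Fin (k + 1) → ℝ) : vecMulVec w (xi x) * PP = vecMulVec w (xi x) := by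
  rw [vecMulVec_mul, xi_vecMul_PP]

theorem eta_mul_PP (w : Fin (k + 1) → ℝ) : vecMulVec w eta * PP = 0 := by
  rw [vecMulVec_mul, eta_vecMul_PP, vecMulVec_zero]

theorem M5_mul (x : Fin (k + 1) → ℝ) (c0 c1 c2 c3 c4 d0 d1 d2 d3 d4 : ℝ) :
    M5 x c0 c1 c2 c3 c4 * M5 x d0 d1 d2 d3 d4 =
      M5 x (c0 * d0) (c0 * d1 + c1 * d0 + c1 * d1 * (2 * qf k x) + c2 * d3)
        (c0 * d2 + c1 * d2 * (2 * qf k x) + c2 * d4)
        (c3 * d0 + c3 * d1 * (2 * qf k x) + c4 * d3)
        (c3 * d2 * (2 * qf k x) + c4 * d4) := by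
  unfold M5
  simp only [Matrix.add_mul, Matrix.mul_add, Matrix.smul_mul, Matrix.mul_smul, PP_mul_PP,
    vv_mul, PP_mul_xi, PP_mul_eta, xi_mul_PP, eta_mul_PP, xi_dot_xi, xi_dot_eta, eta_dot_xi,
    eta_dot_eta]
  module

theorem trace_M5 (x : Fin (k + 1) → ℝ) (c0 c1 c2 c3 c4 : ℝ) :
    (M5 x c0 c1 c2 c3 c4).trace = c0 * k + c1 * (2 * qf k x) + c4 := by
  unfold M5
  rw [trace_add, trace_add, trace_add, trace_add]
  simp only [trace_smul, trace_vecMulVec, xi_dot_xi, xi_dot_eta, eta_dot_xi, eta_dot_eta,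
    smul_eq_mul, mul_zero, mul_one, add_zero]
  congr 3
  unfold PP
  rw [trace_diagonal, Fin.sum_univ_castSucc]
  simp

theorem M5_transpose (x : Fin (k + 1) → ℝ) (c0 c1 c2 c3 c4 : ℝ) :
    (M5 x c0 c1 c2 c3 c4)ᵀ = M5 x c0 c1 c3 c2 c4 := by
  ext i j
  rw [transpose_apply, M5_apply, M5_apply]
  have : (PP : Matrix (Fin (k + 1)) (Fin (k + 1)) ℝ) j i = PP i j := by
    have h : (PP : Matrix (Fin (k + 1)) (Fin (k + 1)) ℝ)ᵀ = PP := by
      unfold PP; rw [diagonal_transpose]
    exact congrFun (congrFun h i) j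
  rw [this]
  ring

theorem det_one_add_vec (u v : Fin (k + 1) → ℝ) (c : ℝ) :
    (1 + c • vecMulVec u v).det = 1 + c * (v ⬝ᵥ u) := by
  have h := det_one_add_replicateCol_mul_replicateRow (ι := Unit) (c • u) v
  have h2 : replicateCol Unit (c • u) * replicateRow Unit v = c • vecMulVec u v := by
    rw [← vecMulVec_eq, smul_vecMulVec]
  rw [h2] at h
  rw [h, dotProduct_smul, smul_eq_mul]

theorem det_M5_diag (x : Fin (k + 1) → ℝ) (c0 c4 : ℝ) :
    (M5 x c0 0 0 0 c4).det = c0 ^ k * c4 := by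
  have h : M5 x c0 0 0 0 c4 = diagonal fun i => if i = Fin.last k then c4 else c0 := by
    ext i j
    rw [M5_apply, PP, diagonal_apply, diagonal_apply, eta_apply, eta_apply]
    by_cases h : i = j
    · subst h
      by_cases h2 : i = Fin.last k <;> simp [h2]
    · by_cases h2 : i = Fin.last k
      · have h3 : ¬ j = Fin.last k := fun h3 => h (h2.trans h3.symm)
        simp [h, h3]
      · simp [h, h2]
  rw [h, det_diagonal, Fin.prod_univ_castSucc]
  simp

/-- The determinant in the factored form. -/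
theorem det_M5_factored (x : Fin (k + 1) → ℝ) (p r e t : ℝ) :
    (M5 x p (p * r + e * t ^ 2) (e * t) (e * t) e).det = p ^ k * e * (1 + r * (2 * qf k x)) := by
  have h1 : M5 x p (p * r + e * t ^ 2) (e * t) (e * t) e =
      M5 x 1 0 t 0 1 * (M5 x p 0 0 0 e * M5 x 1 r 0 0 1) * M5 x 1 0 0 t 1 := by
    rw [M5_mul, M5_mul, M5_mul]
    congr 1 <;> ring
  have h2 : M5 x 1 0 t 0 1 = 1 + t • vecMulVec (xi x) eta := by
    rw [one_eq x]
    unfold M5
    simp
    abel
  have h3 : M5 x 1 0 0 t 1 = 1 + t • vecMulVec eta (xi x) := by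
    rw [one_eq x]
    unfold M5
    simp
    abel
  have h4 : M5 x 1 r 0 0 1 = 1 + r • vecMulVec (xi x) (xi x) := by
    rw [one_eq x]
    unfold M5
    simp
    abel
  rw [h1, det_mul, det_mul, det_mul, det_M5_diag, h2, h3, h4, det_one_add_vec, det_one_add_vec,
    det_one_add_vec, xi_dot_xi, xi_dot_eta, eta_dot_xi]
  ring

/-- Positivity in the factored form. -/
theorem posDef_M5_factored (x : Fin (k + 1) → ℝ) {p r e t : ℝ} (hp : 0 < p) (hr : 0 ≤ r)
    (he : 0 < e) : (M5 x p (p * r + e * t ^ 2) (e * t) (e * t) e).PosDef := by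
  apply Matrix.PosDef.of_dotProduct_mulVec_pos
  · unfold Matrix.IsHermitian
    rw [conjTranspose_eq_transpose_of_trivial, M5_transpose]
  · intro v hv
    have h1 : star v ⬝ᵥ (M5 x p (p * r + e * t ^ 2) (e * t) (e * t) e *ᵥ v) =
        p * ∑ i, (if i = Fin.last k then 0 else v i) ^ 2 + p * r * (xi x ⬝ᵥ v) ^ 2 +
          e * (t * (xi x ⬝ᵥ v) + v (Fin.last k)) ^ 2 := by
      have e1 : eta ⬝ᵥ v = v (Fin.last k) := by
        unfold eta; simp
      have e2 : v ⬝ᵥ (PP *ᵥ v) = ∑ i, (if i = Fin.last k then 0 else v i) ^ 2 := by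
        unfold dotProduct
        apply Finset.sum_congr rfl
        intro i _
        rw [PP, mulVec_diagonal]
        split_ifs <;> simp [sq]
      unfold M5
      simp only [star_trivial, add_mulVec, smul_mulVec, dotProduct_add, dotProduct_smul,
        vecMulVec_mulVec, e2, e1, smul_eq_mul, op_smul_eq_mul]
      rw [dotProduct_comm v (xi x), dotProduct_comm v eta, e1]
      ring
    rw [h1]
    by_cases h : ∀ i, i ≠ Fin.last k → v i = 0
    · have hl : v (Fin.last k) ≠ 0 := by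
        intro h0
        apply hv
        funext i
        by_cases hi : i = Fin.last k
        · rw [hi]; exact h0
        · exact h i hi
      have h2 : xi x ⬝ᵥ v = 0 := by
        unfold dotProduct xi
        apply Finset.sum_eq_zero
        intro i _
        by_cases hi : i = Fin.last k
        · simp [hi]
        · simp [h i hi]
      have h3 : 0 ≤ ∑ i, (if i = Fin.last k then 0 else v i) ^ 2 :=
        Finset.sum_nonneg fun _ _ => sq_nonneg _
      rw [h2]
      have h4 : 0 < e * (t * 0 + v (Fin.last k)) ^ 2 := by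
        rw [mul_zero, zero_add]
        exact mul_pos he (sq_pos_iff.2 hl)
      have h5 : 0 ≤ p * ∑ i, (if i = Fin.last k then 0 else v i) ^ 2 := mul_nonneg hp.le h3
      have h6 : p * r * (0 : ℝ) ^ 2 = 0 := by ring
      linarith
    · push Not at h
      obtain ⟨i, hi, hvi⟩ := h
      have h3 : 0 < ∑ i, (if i = Fin.last k then 0 else v i) ^ 2 := by
        apply Finset.sum_pos' (fun _ _ => sq_nonneg _)
        refine ⟨i, Finset.mem_univ _, ?_⟩
        rw [if_neg hi]
        positivity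
      have h4 : 0 < p * ∑ i, (if i = Fin.last k then 0 else v i) ^ 2 := mul_pos hp h3
      have h5 : 0 ≤ p * r * (xi x ⬝ᵥ v) ^ 2 := mul_nonneg (mul_nonneg hp.le hr) (sq_nonneg _)
      have h6 : 0 ≤ e * (t * (xi x ⬝ᵥ v) + v (Fin.last k)) ^ 2 :=
        mul_nonneg he.le (sq_nonneg _)
      linarith

end Vale.Agent.Lib.P252
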