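import Vale.Agent.Lib.P252.PdeW

/-!
# The PDE part
-/

namespace Vale.Agent.Lib.P252

open Matrix
open scoped ContDiff Topology

variable {k : ℕ}

/-- radial coefficient of the gradient of `log w` -/
noncomputable def Gx (k : ℕ) (f a b : ℝ → ℝ) (z : Fin (k + 1) → ℝ) : ℝ :=
  -(((k : ℝ) + 2) * a (qf k z) + ((k : ℝ) + 2) * a (qf k z) *
          (1 + 4 * qf k z * b (qf k z)) / (k + 4 * qf k z * a (qf k z))) +
          (k + 2) * (a (qf k z) * f (qf k z) ^ 2 / uf k f z ^ 2)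

/-- last coefficient of the gradient of `log w` -/
noncomputable def Gy (k : ℕ) (f : ℝ → ℝ) (z : Fin (k + 1) → ℝ) : ℝ :=
  ((k : ℝ) + 2) * (z (Fin.last k) / uf k f z ^ 2)

/-- derivative of `Q` -/
noncomputable def Qd (k : ℕ) (a b b' : ℝ → ℝ) (s : ℝ) : ℝ :=
  ((k : ℝ) + 2) * ((a s * (b s - a s) * (1 + 4 * s * b s) + a s * (4 * b s + 4 * s * b' s)) *
      (k + 4 * s * a s) - a s * (1 + 4 * s * b s) * (4 * a s + 4 * s * (a s * (b s - a s)))) /
      (k + 4 * s * a s) ^ 2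

section Main

variable {f a b b' : ℝ → ℝ} (h : OdeData k f a b b')
include h

theorem hasGrad_w (hk : 1 ≤ k) (x : Fin (k + 1) → ℝ) :
    HasGrad (wfun (uf k f)) (wfun (uf k f) x • (Gx k f a b x • xi x + Gy k f x • eta)) x := by
  rw [wfun_uf h]
  exact HasGrad.comp (Real.hasDerivAt_exp _) (hasGrad_logw h hk x)

theorem hasGrad_Gx (hk : 1 ≤ k) (x : Fin (k + 1) → ℝ) :
    HasGrad (Gx k f a b)
      ((-(((k : ℝ) + 2) * (a (qf k x) * (b (qf k x) - a (qf k x))) + Qd k a b b' (qf k x)) +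
        (k + 2) * (a (qf k x) * f (qf k x) ^ 2 * (a (qf k x) + b (qf k x)) / uf k f x ^ 2 -
          2 * a (qf k x) ^ 2 * f (qf k x) ^ 4 / uf k f x ^ 4)) • xi x +
        (((k : ℝ) + 2) * (-(2 * a (qf k x) * f (qf k x) ^ 2 * x (Fin.last k) /
          uf k f x ^ 4))) • eta) x := by
  have hu := (uf_pos h x).ne'
  have h1 := (hasGrad_c1 h x).div (hasGrad_uf h x) hu
  have e1 : (fun z : Fin (k + 1) → ℝ => a (qf k z) * f (qf k z) ^ 2 / uf k f z / uf k f z) =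
      fun z => a (qf k z) * f (qf k z) ^ 2 / uf k f z ^ 2 := by
    funext z; rw [div_div, sq (uf k f z)]
  rw [e1] at h1
  have h2 := ((((hasGrad_a h x).const_mul ((k : ℝ) + 2)).add (hasGrad_Q h hk x)).neg).add
    (h1.const_mul ((k : ℝ) + 2))
  refine HasGrad.congr (F := Gx k f a b) h2 ?_
  funext i
  simp only [Pi.add_apply, Pi.sub_apply, Pi.smul_apply, Pi.neg_apply, smul_eq_mul, Qd]
  have e5 : ∀ X E : ℝ, (uf k f x)⁻¹ * ((a (qf k x) * f (qf k x) ^ 2 *
      (a (qf k x) + b (qf k x)) / uf k f x - a (qf k x) ^ 2 * f (qf k x) ^ 4 / uf k f x ^ 3) * X +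
      (-(a (qf k x) * f (qf k x) ^ 2 * x (Fin.last k) / uf k f x ^ 3)) * E) -
      (a (qf k x) * f (qf k x) ^ 2 / uf k f x) / uf k f x ^ 2 *
      (a (qf k x) * f (qf k x) ^ 2 / uf k f x * X + x (Fin.last k) / uf k f x * E) =
      (a (qf k x) * f (qf k x) ^ 2 * (a (qf k x) + b (qf k x)) / uf k f x ^ 2 -
          2 * a (qf k x) ^ 2 * f (qf k x) ^ 4 / uf k f x ^ 4) * X +
      (-(2 * a (qf k x) * f (qf k x) ^ 2 * x (Fin.last k) / uf k f x ^ 4)) * E := by
    intro X E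
    field_simp
    ring
  rw [e5]
  ring

theorem hasGrad_Gy (x : Fin (k + 1) → ℝ) :
    HasGrad (Gy k f)
      ((((k : ℝ) + 2) * (-(2 * a (qf k x) * f (qf k x) ^ 2 * x (Fin.last k) /
          uf k f x ^ 4))) • xi x +
        (((k : ℝ) + 2) * (1 / uf k f x ^ 2 - 2 * x (Fin.last k) ^ 2 / uf k f x ^ 4)) • eta) x := by
  have hu := (uf_pos h x).ne'
  have hsq := uf_sq h x
  have h1 := (hasGrad_c2 h x).div (hasGrad_uf h x) hu
  have e1 : (fun z : Fin (k + 1) → ℝ => z (Fin.last k) / uf k f z / uf k f z) =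
      fun z => z (Fin.last k) / uf k f z ^ 2 := by
    funext z; rw [div_div, sq (uf k f z)]
  rw [e1] at h1
  have h2 := h1.const_mul ((k : ℝ) + 2)
  refine HasGrad.congr (F := Gy k f) h2 ?_
  funext i
  simp only [Pi.add_apply, Pi.sub_apply, Pi.smul_apply, smul_eq_mul]
  have hf : f (qf k x) ^ 2 = uf k f x ^ 2 - x (Fin.last k) ^ 2 := by linarith
  rw [hf]
  field_simp
  ring

theorem partial_w (hk : 1 ≤ k) (i : Fin (k + 1)) :
    (fun y => fderiv ℝ (wfun (uf k f)) y (Pi.single i 1)) = fun z =>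
      wfun (uf k f) z * (Gx k f a b z * xi z i + Gy k f z * eta i) := by
  funext z
  rw [(hasGrad_w h hk z).fderiv_single i]
  simp

/-- The Hessian of `w`. -/
theorem hess_w (hk : 1 ≤ k) (x : Fin (k + 1) → ℝ) :
    hess (wfun (uf k f)) x = wfun (uf k f) x • M5 x (Gx k f a b x)
      (Gx k f a b x ^ 2 +
        (-(((k : ℝ) + 2) * (a (qf k x) * (b (qf k x) - a (qf k x))) + Qd k a b b' (qf k x)) +
        (k + 2) * (a (qf k x) * f (qf k x) ^ 2 * (a (qf k x) + b (qf k x)) / uf k f x ^ 2 -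
          2 * a (qf k x) ^ 2 * f (qf k x) ^ 4 / uf k f x ^ 4)))
      (Gx k f a b x * Gy k f x +
        (((k : ℝ) + 2) * (-(2 * a (qf k x) * f (qf k x) ^ 2 * x (Fin.last k) /
          uf k f x ^ 4))))
      (Gx k f a b x * Gy k f x +
        (((k : ℝ) + 2) * (-(2 * a (qf k x) * f (qf k x) ^ 2 * x (Fin.last k) /
          uf k f x ^ 4))))
      (Gy k f x ^ 2 +
        (((k : ℝ) + 2) * (1 / uf k f x ^ 2 - 2 * x (Fin.last k) ^ 2 / uf k f x ^ 4))) := by
  ext i j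
  unfold hess
  rw [Matrix.of_apply, partial_w h hk i]
  have h1 := (hasGrad_w h hk x).mul (((hasGrad_Gx h hk x).mul (hasGrad_xi i x)).add
    ((hasGrad_Gy h x).mul (hasGrad_const (eta i) x)))
  rw [h1.fderiv_single j, Matrix.smul_apply, M5_apply]
  simp only [Pi.add_apply, Pi.smul_apply, smul_eq_mul, Pi.zero_apply]
  ring

theorem inv_hess (x : Fin (k + 1) → ℝ) {p e r t : ℝ}
    (hp : p = a (qf k x) * f (qf k x) ^ 2 / uf k f x) (he : e = f (qf k x) ^ 2 / uf k f x ^ 3)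
    (hr : r = b (qf k x)) (ht : t = -(x (Fin.last k) * a (qf k x))) :
    (hess (uf k f) x)⁻¹ = M5 x (1 / p) (-(r / (p * (1 + 2 * qf k x * r))))
      (-(t / (p * (1 + 2 * qf k x * r)))) (-(t / (p * (1 + 2 * qf k x * r))))
      (1 / e + 2 * qf k x * t ^ 2 / (p * (1 + 2 * qf k x * r))) := by
  have hu := uf_pos h x
  have hf := h.f_pos _ (qf_nonneg x)
  have ha := h.a_pos _ (qf_nonneg x)
  have hL := L_pos h x
  have hp0 : p ≠ 0 := by rw [hp]; positivity
  have he0 : e ≠ 0 := by rw [he]; positivity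
  have hL0 : 1 + 2 * qf k x * r ≠ 0 := by rw [hr]; exact hL.ne'
  apply Matrix.inv_eq_right_inv
  rw [hess_uf' h, ← hp, ← he, ← hr, ← ht, M5_mul, one_eq x]
  obtain ⟨L, hLd⟩ : ∃ L, L = 1 + 2 * qf k x * r := ⟨_, rfl⟩
  rw [← hLd] at hL0 ⊢
  obtain ⟨σ, hσ⟩ : ∃ σ, σ = 2 * qf k x := ⟨_, rfl⟩
  rw [← hσ] at hLd ⊢
  have hσr : σ * r = L - 1 := by rw [hLd]; ring
  congr 1
  · field_simp
  · field_simp
    linear_combination (-(p * r) - e * t ^ 2) * hσr
  · field_simp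
    linear_combination (-(t * p)) * hσr
  · field_simp
    linear_combination (-(e * t)) * hσr
  · field_simp
    ring

theorem AM_uf (hk : 1 ≤ k) (x : Fin (k + 1) → ℝ) : AM (uf k f) x = 0 := by
  have hu := uf_pos h x
  have hf := h.f_pos _ (qf_nonneg x)
  have ha := h.a_pos _ (qf_nonneg x)
  have hL := L_pos h x
  have hT := T_pos h hk x
  have hsq := uf_sq h x
  set A := (hess (uf k f) x)⁻¹ with hA
  obtain ⟨K, hK⟩ : ∃ K, K = M5 x (Gx k f a b x)
      (Gx k f a b x ^ 2 +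
        (-(((k : ℝ) + 2) * (a (qf k x) * (b (qf k x) - a (qf k x))) + Qd k a b b' (qf k x)) +
        (k + 2) * (a (qf k x) * f (qf k x) ^ 2 * (a (qf k x) + b (qf k x)) / uf k f x ^ 2 -
          2 * a (qf k x) ^ 2 * f (qf k x) ^ 4 / uf k f x ^ 4)))
      (Gx k f a b x * Gy k f x +
        (((k : ℝ) + 2) * (-(2 * a (qf k x) * f (qf k x) ^ 2 * x (Fin.last k) /
          uf k f x ^ 4))))
      (Gx k f a b x * Gy k f x +
        (((k : ℝ) + 2) * (-(2 * a (qf k x) * f (qf k x) ^ 2 * x (Fin.last k) /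
          uf k f x ^ 4))))
      (Gy k f x ^ 2 +
        (((k : ℝ) + 2) * (1 / uf k f x ^ 2 - 2 * x (Fin.last k) ^ 2 / uf k f x ^ 4))) := ⟨_, rfl⟩
  have h1 : AM (uf k f) x = (hess (uf k f) x).det * wfun (uf k f) x * (A * Kᵀ).trace := by
    unfold AM
    rw [hess_w h hk, ← hK]
    simp only [Matrix.trace, Matrix.diag_apply, Matrix.mul_apply, Matrix.transpose_apply,
      Matrix.smul_apply, smul_eq_mul, Finset.mul_sum]
    refine Finset.sum_congr rfl fun i _ => Finset.sum_congr rfl fun j _ => ?_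
    ring
  have h2 : (A * Kᵀ).trace = 0 := by
    rw [hA, inv_hess h x rfl rfl rfl rfl, hK, M5_transpose, M5_mul, trace_M5]
    exact final_identity (s := qf k x) (f := f (qf k x)) (y := x (Fin.last k)) (u := uf k f x)
      (a := a (qf k x)) (b := b (qf k x)) (b' := b' (qf k x)) hu.ne' hf.ne' ha.ne'
      (by linarith) hT.ne' hL.ne' (h.ode _ (qf_nonneg x)) rfl rfl rfl rfl rfl rfl rfl rfl rfl rfl
      rfl rfl rfl
  rw [h1, h2, mul_zero]

theorem contDiff_uf : ContDiff ℝ ∞ (uf k f) := by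
  have h1 : ContDiff ℝ ∞ (qf k) := by
    unfold qf
    fun_prop
  have h2 : ContDiff ℝ ∞ fun x : Fin (k + 1) → ℝ => f (qf k x) := by
    rw [← contDiffOn_univ] at h1 ⊢
    exact h.smooth_f.comp h1 fun x _ => qf_nonneg x
  have h3 : ContDiff ℝ ∞ fun x : Fin (k + 1) → ℝ => f (qf k x) ^ 2 + x (Fin.last k) ^ 2 :=
    (h2.pow 2).add (by fun_prop)
  exact h3.sqrt fun x => (inside_pos h x).ne'

theorem not_quadratic : ¬ ∃ (A : Matrix (Fin (k + 1)) (Fin (k + 1)) ℝ) (c : Fin (k + 1) → ℝ)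
    (d : ℝ), ∀ x, uf k f x = (1 / 2) * (x ⬝ᵥ A.mulVec x) + c ⬝ᵥ x + d := by
  rintro ⟨A, c, d, hA⟩
  set α := A (Fin.last k) (Fin.last k)
  set γ := c (Fin.last k)
  have hf := h.f_pos 0 le_rfl
  have h1 : ∀ t : ℝ, Real.sqrt (f 0 ^ 2 + t ^ 2) = 1 / 2 * α * t ^ 2 + γ * t + d := by
    intro t
    have h2 := hA (Pi.single (Fin.last k) t)
    have e1 : qf k (Pi.single (Fin.last k) t) = 0 := by
      unfold qf
      simp
    unfold uf at h2
    rw [e1] at h2
    simp only [Pi.single_eq_same] at h2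
    rw [h2]
    simp [α, γ, Matrix.mulVec_single, single_dotProduct]
    ring
  have p1 := h1 1
  have p2 := h1 2
  have p3 := h1 3
  have p0 := h1 0
  have m1 := h1 (-1)
  have m2 := h1 (-2)
  have m3 := h1 (-3)
  have q : ∀ t : ℝ, Real.sqrt (f 0 ^ 2 + t ^ 2) ^ 2 = f 0 ^ 2 + t ^ 2 := fun t =>
    Real.sq_sqrt (by positivity)
  have q1 := q 1
  have q2 := q 2
  have q3 := q 3
  have q0 := q 0
  have n1 := q (-1)
  have hγ : γ = 0 := by
    have : Real.sqrt (f 0 ^ 2 + 1 ^ 2) = Real.sqrt (f 0 ^ 2 + (-1) ^ 2) := by norm_num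
    rw [p1, m1] at this
    linarith
  rw [p0] at q0
  rw [p1] at q1
  rw [p2] at q2
  rw [p3] at q3
  rw [hγ] at q0 q1 q2 q3
  -- `(α/2 t² + d)² = f0² + t²` at `t = 0, 1, 2, 3` is impossible
  have hα : α ^ 2 = 0 := by nlinarith
  have hα0 : α = 0 := pow_eq_zero_iff (two_ne_zero) |>.1 hα
  rw [hα0] at q0 q1
  nlinarith

end Main

/-- The PDE part. -/
theorem pdePart : PdePart := fun _k _f _a _b _b' hk h =>
  ⟨contDiff_uf h, posDef_hess_uf h, AM_uf h hk, not_quadratic h⟩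

end Vale.Agent.Lib.P252
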