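import Vale.Agent.Lib.P252.Pde

/-!
# The affine maximal equation for the candidate, and the PDE part
-/

namespace Vale.Agent.Lib.P252

open Matrix
open scoped ContDiff Topology

theorem final_identity {k s f y u a b b' : ℝ} (hu : u ≠ 0) (hf : f ≠ 0) (ha : a ≠ 0)
    (huu : y ^ 2 = u ^ 2 - f ^ 2) (hT : k + 4 * s * a ≠ 0) (hL : 1 + 2 * s * b ≠ 0)
    (ode : 2 * s * b' = -2 * b + (1 + 2 * s * b) *
      (-(k * b) + a + (k + 3) * a * (1 + 4 * s * b) / (k + 4 * s * a)))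
    {p e r t σ Q Q' G1 G2 G11 G12 G21 G22 : ℝ}
    (hp : p = a * f ^ 2 / u) (he : e = f ^ 2 / u ^ 3) (hr : r = b) (ht : t = -(y * a))
    (hσ : σ = 2 * s)
    (hQ : Q = (k + 2) * a * (1 + 4 * s * b) / (k + 4 * s * a))
    (hQ' : Q' = (k + 2) * ((a * (b - a) * (1 + 4 * s * b) + a * (4 * b + 4 * s * b')) *
      (k + 4 * s * a) - a * (1 + 4 * s * b) * (4 * a + 4 * s * (a * (b - a)))) /
      (k + 4 * s * a) ^ 2)
    (hG1 : G1 = -((k + 2) * a + Q) + (k + 2) * (a * f ^ 2 / u ^ 2))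
    (hG2 : G2 = (k + 2) * (y / u ^ 2))
    (hG11 : G11 = -((k + 2) * (a * (b - a)) + Q') + (k + 2) * (a * f ^ 2 * (a + b) / u ^ 2 -
      2 * a ^ 2 * f ^ 4 / u ^ 4))
    (hG12 : G12 = (k + 2) * (-(2 * a * f ^ 2 * y / u ^ 4)))
    (hG21 : G21 = (k + 2) * (-(2 * a * f ^ 2 * y / u ^ 4)))
    (hG22 : G22 = (k + 2) * (1 / u ^ 2 - 2 * y ^ 2 / u ^ 4)) :
    (1 / p) * G1 * k + ((1 / p) * (G1 ^ 2 + G11) + (-(r / (p * (1 + σ * r)))) * G1 +
      (-(r / (p * (1 + σ * r)))) * (G1 ^ 2 + G11) * σ +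
      (-(t / (p * (1 + σ * r)))) * (G1 * G2 + G12)) * σ +
      ((-(t / (p * (1 + σ * r)))) * (G1 * G2 + G21) * σ +
      (1 / e + σ * t ^ 2 / (p * (1 + σ * r))) * (G2 ^ 2 + G22)) = 0 := by
  have hp0 : p ≠ 0 := by rw [hp]; positivity
  have he0 : e ≠ 0 := by rw [he]; positivity
  have hL' : 1 + σ * r ≠ 0 := by rw [hσ, hr]; exact hL
  have hpe : p / e = a * u ^ 2 := by rw [hp, he]; field_simp
  -- multiply by p * (1 + σ r)
  have key : G1 * (k * (1 + σ * r) - σ * r) + σ * (G1 ^ 2 + G11) - σ * t * (G1 * G2 + G12) -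
      σ * t * (G1 * G2 + G21) +
      (a * u ^ 2 * (1 + σ * r) + σ * t ^ 2) * (G2 ^ 2 + G22) = 0 := by
    -- first eliminate y and u
    have hz : ∃ z v : ℝ, v = 1 - z ∧ z = y ^ 2 / u ^ 2 ∧ v = f ^ 2 / u ^ 2 := by
      refine ⟨y ^ 2 / u ^ 2, f ^ 2 / u ^ 2, ?_, rfl, rfl⟩
      rw [huu]; field_simp; ring
    obtain ⟨z, v, hvz, hz, hv⟩ := hz
    have a1 : G1 = -((k + 2) * a * z) - Q := by
      have : a * f ^ 2 / u ^ 2 = a * v := by rw [hv]; ring
      rw [hG1, this, hvz]; ring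
    have a2 : G11 = -((k + 2) * (a * (b - a)) + Q') + (k + 2) * (a * (a + b) * v -
        2 * a ^ 2 * v ^ 2) := by
      rw [hG11, hv]; field_simp
    have a3 : y * G2 = (k + 2) * z := by rw [hG2, hz]; ring
    have a4 : y * G12 = (k + 2) * (-(2 * a * v * z)) := by rw [hG12, hv, hz]; field_simp
    have a5 : y * G21 = (k + 2) * (-(2 * a * v * z)) := by rw [hG21, hv, hz]; field_simp
    have a6 : u ^ 2 * (G2 ^ 2 + G22) = (k + 2) ^ 2 * z + (k + 2) * (1 - 2 * z) := by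
      rw [hG2, hG22, hz]; field_simp
    have a7 : y ^ 2 * (G2 ^ 2 + G22) = z * ((k + 2) ^ 2 * z + (k + 2) * (1 - 2 * z)) := by
      rw [hG2, hG22, hz]; field_simp
    have red : (k + 2) * a * (1 + σ * b) - Q * (k * (1 + σ * b) - σ * b) + σ * Q ^ 2 - σ * Q' = 0 := by
      have hR : σ * Q' = (k + 2) * ((σ * (a * (b - a)) * (1 + 4 * s * b) + a * (2 * σ * (2 * b) +
          2 * σ * (2 * s * b'))) *
        (k + 4 * s * a) - a * (1 + 4 * s * b) * (4 * a * σ + 4 * s * (a * (b - a)) * σ)) /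
          (k + 4 * s * a) ^ 2 := by
        rw [hQ']; ring
      rw [hR, ode, hQ, hσ]
      obtain ⟨T, hTd⟩ : ∃ T, T = k + 4 * s * a := ⟨_, rfl⟩
      have hk : k = T - 4 * s * a := by rw [hTd]; ring
      rw [← hTd] at hT ⊢
      field_simp
      rw [hk]
      ring
    have expand : G1 * (k * (1 + σ * r) - σ * r) + σ * (G1 ^ 2 + G11) - σ * t * (G1 * G2 + G12) -
      σ * t * (G1 * G2 + G21) +
      (a * u ^ 2 * (1 + σ * r) + σ * t ^ 2) * (G2 ^ 2 + G22) =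
      G1 * (k * (1 + σ * b) - σ * b) + σ * (G1 ^ 2 + G11) + σ * a * (G1 * (y * G2) + y * G12) +
      σ * a * (G1 * (y * G2) + y * G21) +
      a * (1 + σ * b) * (u ^ 2 * (G2 ^ 2 + G22)) + σ * a ^ 2 * (y ^ 2 * (G2 ^ 2 + G22)) := by
      rw [ht, hr]; ring
    rw [expand, a3, a4, a5, a6, a7, a2, a1, hvz]
    linear_combination red
  have : (1 / p) * G1 * k + ((1 / p) * (G1 ^ 2 + G11) + (-(r / (p * (1 + σ * r)))) * G1 +
      (-(r / (p * (1 + σ * r)))) * (G1 ^ 2 + G11) * σ +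
      (-(t / (p * (1 + σ * r)))) * (G1 * G2 + G12)) * σ +
      ((-(t / (p * (1 + σ * r)))) * (G1 * G2 + G21) * σ +
      (1 / e + σ * t ^ 2 / (p * (1 + σ * r))) * (G2 ^ 2 + G22)) =
      (1 / (p * (1 + σ * r))) * (G1 * (k * (1 + σ * r) - σ * r) + σ * (G1 ^ 2 + G11) -
        σ * t * (G1 * G2 + G12) - σ * t * (G1 * G2 + G21) +
      ((p / e) * (1 + σ * r) + σ * t ^ 2) * (G2 ^ 2 + G22)) := by
    clear key
    obtain ⟨L, hLd⟩ : ∃ L, L = 1 + σ * r := ⟨_, rfl⟩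
    have hσr : σ * r = L - 1 := by rw [hLd]; ring
    rw [← hLd] at hL' ⊢
    field_simp
    linear_combination (-(G1 ^ 2 + G11) * σ * e) * hσr
  rw [this, hpe, key, mul_zero]

variable {k : ℕ}

section W

variable {f a b b' : ℝ → ℝ} (h : OdeData k f a b b')
include h

/-- the coefficient `Q` -/
theorem T_pos (hk : 1 ≤ k) (x : Fin (k + 1) → ℝ) : 0 < (k : ℝ) + 4 * qf k x * a (qf k x) := by
  have h1 := h.a_pos _ (qf_nonneg x)
  have h2 := qf_nonneg x
  have h3 : (1 : ℝ) ≤ k := by exact_mod_cast hk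
  have : 0 ≤ 4 * qf k x * a (qf k x) := by positivity
  linarith

theorem hasGrad_Q (hk : 1 ≤ k) (x : Fin (k + 1) → ℝ) :
    HasGrad (fun z => ((k : ℝ) + 2) * a (qf k z) * (1 + 4 * qf k z * b (qf k z)) /
        (k + 4 * qf k z * a (qf k z)))
      ((((k : ℝ) + 2) * ((a (qf k x) * (b (qf k x) - a (qf k x)) *
        (1 + 4 * qf k x * b (qf k x)) + a (qf k x) * (4 * b (qf k x) + 4 * qf k x * b' (qf k x))) *
      (k + 4 * qf k x * a (qf k x)) - a (qf k x) * (1 + 4 * qf k x * b (qf k x)) *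
        (4 * a (qf k x) + 4 * qf k x * (a (qf k x) * (b (qf k x) - a (qf k x))))) /
      (k + 4 * qf k x * a (qf k x)) ^ 2) • xi x) x := by
  have hT := (T_pos h hk x).ne'
  have h1 : HasGrad (fun z => 4 * (qf k z * b (qf k z))) _ x :=
    ((hasGrad_qf x).mul (hasGrad_b h x)).const_mul 4
  have h2 : HasGrad (fun z => 4 * (qf k z * a (qf k z))) _ x :=
    ((hasGrad_qf x).mul (hasGrad_a h x)).const_mul 4
  have h3 := (((hasGrad_a h x).const_mul ((k : ℝ) + 2)).mul ((hasGrad_const 1 x).add h1)).div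
    ((hasGrad_const (k : ℝ) x).add h2) (by
      have : (k : ℝ) + 4 * (qf k x * a (qf k x)) = k + 4 * qf k x * a (qf k x) := by ring
      rw [this]; exact hT)
  have e1 : (fun z : Fin (k + 1) → ℝ => ((k : ℝ) + 2) * a (qf k z) *
      (1 + 4 * (qf k z * b (qf k z))) / (k + 4 * (qf k z * a (qf k z)))) = fun z =>
      ((k : ℝ) + 2) * a (qf k z) * (1 + 4 * qf k z * b (qf k z)) /
        (k + 4 * qf k z * a (qf k z)) := by
    funext z
    congr 2 <;> ring
  rw [e1] at h3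
  refine h3.congr ?_
  funext i
  simp only [Pi.add_apply, Pi.sub_apply, Pi.smul_apply, smul_eq_mul, Pi.zero_apply]
  obtain ⟨T, hTd⟩ : ∃ T, T = (k : ℝ) + 4 * qf k x * a (qf k x) := ⟨_, rfl⟩
  have e2 : (k : ℝ) + 4 * (qf k x * a (qf k x)) = T := by rw [hTd]; ring
  rw [e2, ← hTd]
  rw [← hTd] at hT
  field_simp
  ring

/-- the gradient of `log w` -/
theorem hasGrad_logw (hk : 1 ≤ k) (x : Fin (k + 1) → ℝ) :
    HasGrad (fun z => -(((k : ℝ) + 2) / (k + 3)) * (k * Real.log (a (qf k z)) +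
      (2 * k + 2) * Real.log (f (qf k z)) + Real.log (1 + 2 * qf k z * b (qf k z))) +
      (k + 2) * Real.log (uf k f z))
      ((-(((k : ℝ) + 2) * a (qf k x) + ((k : ℝ) + 2) * a (qf k x) *
          (1 + 4 * qf k x * b (qf k x)) / (k + 4 * qf k x * a (qf k x))) +
          (k + 2) * (a (qf k x) * f (qf k x) ^ 2 / uf k f x ^ 2)) • xi x +
        (((k : ℝ) + 2) * (x (Fin.last k) / uf k f x ^ 2)) • eta) x := by
  have hu := uf_pos h x
  have hf := h.f_pos _ (qf_nonneg x)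
  have ha := h.a_pos _ (qf_nonneg x)
  have hL := L_pos h x
  have hT := T_pos h hk x
  have g1 : HasGrad (fun z => Real.log (a (qf k z))) _ x :=
    HasGrad.comp (Real.hasDerivAt_log ha.ne') (hasGrad_a h x)
  have g2 : HasGrad (fun z => Real.log (f (qf k z))) _ x :=
    HasGrad.comp (Real.hasDerivAt_log hf.ne') (hasGrad_f h x)
  have g3 : HasGrad (fun z => 1 + 2 * qf k z * b (qf k z)) _ x :=
    (hasGrad_const 1 x).add (((hasGrad_qf x).const_mul 2).mul (hasGrad_b h x))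
  have g4 : HasGrad (fun z => Real.log (1 + 2 * qf k z * b (qf k z))) _ x :=
    HasGrad.comp (Real.hasDerivAt_log hL.ne') g3
  have g5 : HasGrad (fun z => Real.log (uf k f z)) _ x :=
    HasGrad.comp (Real.hasDerivAt_log hu.ne') (hasGrad_uf h x)
  have g6 := ((((g1.const_mul (k : ℝ)).add (g2.const_mul (2 * (k : ℝ) + 2))).add g4).const_mul
    (-(((k : ℝ) + 2) / (k + 3)))).add (g5.const_mul ((k : ℝ) + 2))
  refine g6.congr ?_
  -- the identity for the radial part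
  have hode := h.ode _ (qf_nonneg x)
  have h3 : (k : ℝ) + 3 ≠ 0 := by positivity
  have key : (1 + 2 * qf k x * b (qf k x))⁻¹ * (2 * b (qf k x) + 2 * qf k x * b' (qf k x)) =
      -(k * b (qf k x)) + a (qf k x) + (k + 3) * a (qf k x) * (1 + 4 * qf k x * b (qf k x)) /
        (k + 4 * qf k x * a (qf k x)) := by
    rw [hode]
    have e : 2 * b (qf k x) + (-2 * b (qf k x) + (1 + 2 * qf k x * b (qf k x)) *
        (-(k * b (qf k x)) + a (qf k x) + (k + 3) * a (qf k x) *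
        (1 + 4 * qf k x * b (qf k x)) / (k + 4 * qf k x * a (qf k x)))) =
        (1 + 2 * qf k x * b (qf k x)) *
        (-(k * b (qf k x)) + a (qf k x) + (k + 3) * a (qf k x) *
        (1 + 4 * qf k x * b (qf k x)) / (k + 4 * qf k x * a (qf k x))) := by ring
    rw [e, inv_mul_cancel_left₀ hL.ne']
  have key2 : -(((k : ℝ) + 2) / (k + 3)) * (k * ((a (qf k x))⁻¹ * (a (qf k x) *
        (b (qf k x) - a (qf k x)))) + (2 * k + 2) * ((f (qf k x))⁻¹ * (a (qf k x) * f (qf k x))) +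
        (1 + 2 * qf k x * b (qf k x))⁻¹ * (2 * b (qf k x) + 2 * qf k x * b' (qf k x))) =
      -(((k : ℝ) + 2) * a (qf k x) + ((k : ℝ) + 2) * a (qf k x) *
          (1 + 4 * qf k x * b (qf k x)) / (k + 4 * qf k x * a (qf k x))) := by
    rw [key, inv_mul_cancel_left₀ ha.ne']
    have e2 : (f (qf k x))⁻¹ * (a (qf k x) * f (qf k x)) = a (qf k x) := by
      field_simp
    rw [e2]
    obtain ⟨T, hTd⟩ : ∃ T, T = (k : ℝ) + 4 * qf k x * a (qf k x) := ⟨_, rfl⟩
    rw [← hTd]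
    rw [← hTd] at hT
    have hT' := hT.ne'
    field_simp
    ring
  funext i
  simp only [Pi.add_apply, Pi.smul_apply, smul_eq_mul, Pi.zero_apply]
  rw [← key2]
  have hu' := hu.ne'
  have e5 : ∀ X E : ℝ, (k + 2) * ((uf k f x)⁻¹ * (a (qf k x) * f (qf k x) ^ 2 / uf k f x * X +
      x (Fin.last k) / uf k f x * E)) = (k + 2) * (a (qf k x) * f (qf k x) ^ 2 / uf k f x ^ 2) * X +
      (k + 2) * (x (Fin.last k) / uf k f x ^ 2) * E := by
    intro X E
    field_simp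
  rw [e5]
  ring

end W

end Vale.Agent.Lib.P252
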