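import Mathlib

/-! The averaging operator `T c g s = ∫₀¹ σ^c g(σ s) dσ`. -/

namespace Vale.Agent.Lib.P252

open Set Filter Topology MeasureTheory
open scoped ContDiff

/-- averaging operator -/
noncomputable def T (c : ℝ) (g : ℝ → ℝ) (s : ℝ) : ℝ := ∫ σ in (0:ℝ)..1, σ ^ c * g (σ * s)

lemma T_congr {c : ℝ} {g g' : ℝ → ℝ} {s : ℝ} (hs : 0 ≤ s) (h : ∀ x, 0 ≤ x → g x = g' x) :
    T c g s = T c g' s := by
  unfold T
  apply intervalIntegral.integral_congr
  intro σ hσ
  rw [uIcc_of_le zero_le_one] at hσ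
  simp only
  rw [h _ (mul_nonneg hσ.1 hs)]

/-- freezing a function on the negative half line -/
noncomputable def ext (g : ℝ → ℝ) (x : ℝ) : ℝ := g (max x 0)

lemma ext_eq {g : ℝ → ℝ} {x : ℝ} (hx : 0 ≤ x) : ext g x = g x := by
  unfold ext; rw [max_eq_left hx]

lemma ext_continuous {g : ℝ → ℝ} (hg : ContinuousOn g (Ici 0)) : Continuous (ext g) := by
  unfold ext
  exact hg.comp_continuous (continuous_id.max continuous_const)
    (fun x => Set.mem_Ici.2 (le_max_right _ _))

lemma T_ext {c : ℝ} {g : ℝ → ℝ} {s : ℝ} (hs : 0 ≤ s) : T c (ext g) s = T c g s :=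
  T_congr hs (fun _ hx => ext_eq hx)

lemma T_continuous {c : ℝ} (hc : 0 ≤ c) {g : ℝ → ℝ} (hg : Continuous g) :
    Continuous (T c g) := by
  unfold T
  apply intervalIntegral.continuous_parametric_intervalIntegral_of_continuous'
  unfold Function.uncurry
  simp only
  exact ((Real.continuous_rpow_const hc).comp continuous_snd).mul
    (hg.comp (continuous_snd.mul continuous_fst))

lemma T_continuousOn {c : ℝ} (hc : 0 ≤ c) {g : ℝ → ℝ} (hg : ContinuousOn g (Ici 0)) :
    ContinuousOn (T c g) (Ici 0) :=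
  (T_continuous hc (ext_continuous hg)).continuousOn.congr (fun _ hs => (T_ext hs).symm)

lemma integrand_int {c : ℝ} (hc : 0 ≤ c) {g : ℝ → ℝ} (hg : Continuous g) (s : ℝ) (u v : ℝ) :
    IntervalIntegrable (fun σ => σ ^ c * g (σ * s)) volume u v :=
  ((Real.continuous_rpow_const hc).mul (hg.comp (continuous_id.mul continuous_const))
    ).intervalIntegrable _ _

lemma integral_rpow01 {c : ℝ} (hc : 0 ≤ c) : ∫ σ in (0:ℝ)..1, σ ^ c = 1 / (c + 1) := by
  rw [integral_rpow (Or.inl (by linarith))]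
  rw [Real.one_rpow, Real.zero_rpow (by linarith)]
  simp

lemma T_const {c : ℝ} (hc : 0 ≤ c) (d s : ℝ) : T c (fun _ => d) s = d / (c + 1) := by
  unfold T
  rw [intervalIntegral.integral_mul_const, integral_rpow01 hc]
  ring

lemma T_zero {c : ℝ} (hc : 0 ≤ c) (g : ℝ → ℝ) : T c g 0 = g 0 / (c + 1) := by
  have : T c g 0 = T c (fun _ => g 0) 0 := by
    unfold T
    simp
  rw [this, T_const hc]

lemma T_add {c : ℝ} (hc : 0 ≤ c) {g h : ℝ → ℝ} (hg : ContinuousOn g (Ici 0))
    (hh : ContinuousOn h (Ici 0)) {s : ℝ} (hs : 0 ≤ s) :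
    T c (fun x => g x + h x) s = T c g s + T c h s := by
  rw [← T_ext (g := g) hs, ← T_ext (g := h) hs]
  have : T c (fun x => g x + h x) s = T c (fun x => ext g x + ext h x) s :=
    T_congr hs (fun x hx => by rw [ext_eq hx, ext_eq hx])
  rw [this]
  unfold T
  rw [← intervalIntegral.integral_add (integrand_int hc (ext_continuous hg) s _ _)
    (integrand_int hc (ext_continuous hh) s _ _)]
  apply intervalIntegral.integral_congr
  intro σ _
  simp only
  ring

lemma T_const_mul {c : ℝ} (d : ℝ) (g : ℝ → ℝ) (s : ℝ) :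
    T c (fun x => d * g x) s = d * T c g s := by
  unfold T
  rw [← intervalIntegral.integral_const_mul]
  apply intervalIntegral.integral_congr
  intro σ _
  simp only
  ring

lemma T_id_mul {c : ℝ} (hc : 0 ≤ c) (g : ℝ → ℝ) {s : ℝ} :
    T c (fun x => x * g x) s = s * T (c + 1) g s := by
  unfold T
  rw [← intervalIntegral.integral_const_mul]
  apply intervalIntegral.integral_congr
  intro σ hσ
  rw [uIcc_of_le zero_le_one] at hσ
  simp only
  rcases eq_or_lt_of_le hσ.1 with h0 | h0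
  · rw [← h0]
    rw [Real.zero_rpow (by linarith : c + 1 ≠ 0)]
    ring
  · rw [Real.rpow_add_one h0.ne']
    ring

/-- for positive `s` the operator is a weighted primitive -/
lemma T_eq {c : ℝ} (g : ℝ → ℝ) {s : ℝ} (hs : 0 < s) :
    s ^ (c + 1) * T c g s = ∫ τ in (0:ℝ)..s, τ ^ c * g τ := by
  have h1 := intervalIntegral.integral_comp_mul_right (a := (0:ℝ)) (b := 1)
    (fun τ => (τ * s⁻¹) ^ c * g τ) hs.ne'
  simp only [zero_mul, one_mul, smul_eq_mul] at h1
  have h2 : T c g s = ∫ σ in (0:ℝ)..1, (σ * s * s⁻¹) ^ c * g (σ * s) := by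
    unfold T
    apply intervalIntegral.integral_congr
    intro σ _
    simp only
    rw [mul_assoc σ s, mul_inv_cancel₀ hs.ne', mul_one]
  rw [h2, h1, ← intervalIntegral.integral_const_mul, ← intervalIntegral.integral_const_mul]
  apply intervalIntegral.integral_congr
  intro τ hτ
  rw [uIcc_of_le hs.le] at hτ
  simp only
  rw [Real.mul_rpow hτ.1 (inv_nonneg.2 hs.le), Real.rpow_add_one hs.ne', Real.inv_rpow hs.le]
  have : s ^ c ≠ 0 := (Real.rpow_pos_of_pos hs c).ne'
  field_simp

lemma hasDerivAt_prim {c : ℝ} (hc : 0 ≤ c) {g : ℝ → ℝ} (hg : Continuous g) (s : ℝ) :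
    HasDerivAt (fun s => ∫ τ in (0:ℝ)..s, τ ^ c * g τ) (s ^ c * g s) s := by
  have hcont : Continuous (fun τ : ℝ => τ ^ c * g τ) := (Real.continuous_rpow_const hc).mul hg
  exact intervalIntegral.integral_hasDerivAt_right (hcont.intervalIntegrable _ _)
    (hcont.stronglyMeasurableAtFilter _ _) hcont.continuousAt

/-- derivative of `T` at positive points -/
lemma T_hasDerivAt {c : ℝ} (hc : 0 ≤ c) {g : ℝ → ℝ} (hg : Continuous g) {s : ℝ} (hs : 0 < s) :
    HasDerivAt (T c g) ((g s - (c + 1) * T c g s) / s) s := by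
  have h1 : HasDerivAt (fun s => s ^ (-(c + 1)) * ∫ τ in (0:ℝ)..s, τ ^ c * g τ)
      ((-(c + 1) * s ^ (-(c + 1) - 1)) * (∫ τ in (0:ℝ)..s, τ ^ c * g τ)
        + s ^ (-(c + 1)) * (s ^ c * g s)) s :=
    (Real.hasDerivAt_rpow_const (Or.inl hs.ne')).mul (hasDerivAt_prim hc hg s)
  have h2 : T c g =ᶠ[𝓝 s] (fun s => s ^ (-(c + 1)) * ∫ τ in (0:ℝ)..s, τ ^ c * g τ) := by
    filter_upwards [lt_mem_nhds hs] with t ht
    rw [← T_eq g ht, ← mul_assoc, ← Real.rpow_add ht]
    simp
  refine (h1.congr_of_eventuallyEq h2).congr_deriv ?_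
  rw [← T_eq g hs]
  have e1 : s ^ (-(c + 1) - 1) * (s ^ (c + 1)) = 1 / s := by
    rw [← Real.rpow_add hs]
    have : -(c + 1) - 1 + (c + 1) = -1 := by ring
    rw [this, Real.rpow_neg_one]
    simp
  have e2 : s ^ (-(c + 1)) * s ^ c = 1 / s := by
    rw [← Real.rpow_add hs]
    have : -(c + 1) + c = -1 := by ring
    rw [this, Real.rpow_neg_one]
    simp
  calc (-(c + 1) * s ^ (-(c + 1) - 1)) * (s ^ (c + 1) * T c g s) + s ^ (-(c + 1)) * (s ^ c * g s)
      = -(c + 1) * (s ^ (-(c + 1) - 1) * (s ^ (c + 1))) * T c g s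
        + (s ^ (-(c + 1)) * s ^ c) * g s := by ring
    _ = (g s - (c + 1) * T c g s) / s := by rw [e1, e2]; ring

/-- the function `s T_c g (s)` is differentiable on the closed half line -/
lemma sT_hasDerivWithinAt {c : ℝ} (hc : 0 ≤ c) {g : ℝ → ℝ} (hg : ContinuousOn g (Ici 0)) {s : ℝ}
    (hs : 0 ≤ s) :
    HasDerivWithinAt (fun s => s * T c g s) (g s - c * T c g s) (Ici 0) s := by
  have key : HasDerivWithinAt (fun s => s * T c (ext g) s) (ext g s - c * T c (ext g) s)
      (Ici 0) s := by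
    rcases eq_or_lt_of_le hs with h0 | h0
    · subst h0
      rw [hasDerivWithinAt_iff_tendsto_slope]
      have h1 : Tendsto (T c (ext g)) (𝓝[Ici 0 \ {0}] 0) (𝓝 (T c (ext g) 0)) :=
        (T_continuous hc (ext_continuous hg)).continuousAt.mono_left nhdsWithin_le_nhds
      have h2 : ext g 0 - c * T c (ext g) 0 = T c (ext g) 0 := by
        rw [T_zero hc]
        have : c + 1 ≠ 0 := by linarith
        field_simp
        ring
      rw [h2]
      refine h1.congr' ?_
      filter_upwards [self_mem_nhdsWithin] with t ht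
      have ht0 : t ≠ 0 := ht.2
      rw [slope_def_field]
      field_simp
      ring
    · have h1 := (hasDerivAt_id s).mul (T_hasDerivAt hc (ext_continuous hg) h0)
      refine (h1.congr_deriv ?_).hasDerivWithinAt
      simp only [id]
      field_simp
      ring
  rw [T_ext hs, ext_eq hs] at key
  refine key.congr (fun x hx => ?_) ?_
  · rw [T_ext hx]
  · rw [T_ext hs]

/-- Hadamard formula -/
lemma hadamard {g g' : ℝ → ℝ} (hg : ∀ s, 0 ≤ s → HasDerivWithinAt g (g' s) (Ici 0) s)
    (hg' : ContinuousOn g' (Ici 0)) {s : ℝ} (hs : 0 ≤ s) :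
    g s = g 0 + s * T 0 g' s := by
  rcases eq_or_lt_of_le hs with h0 | h0
  · rw [← h0]; ring
  have h1 : ∫ τ in (0:ℝ)..s, g' τ = g s - g 0 := by
    apply intervalIntegral.integral_eq_sub_of_hasDeriv_right_of_le hs
    · intro x hx
      exact (hg x hx.1).continuousWithinAt.mono Icc_subset_Ici_self
    · intro x hx
      exact (hg x hx.1.le).mono (fun y hy => le_of_lt (lt_trans hx.1 hy))
    · exact (hg'.mono (by rw [uIcc_of_le hs]; exact Icc_subset_Ici_self)).intervalIntegrable
  have h2 := T_eq (c := 0) g' h0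
  simp only [zero_add, Real.rpow_one, Real.rpow_zero, one_mul] at h2
  rw [h2, h1]
  ring

/-- building `C^{m+1}` functions on the closed half line -/
lemma contDiffOn_succ_of {m : ℕ} {g g' : ℝ → ℝ}
    (hg : ∀ s, 0 ≤ s → HasDerivWithinAt g (g' s) (Ici 0) s)
    (hg' : ContDiffOn ℝ m g' (Ici 0)) : ContDiffOn ℝ (m + 1) g (Ici 0) := by
  rw [contDiffOn_succ_iff_derivWithin (uniqueDiffOn_Ici 0)]
  refine ⟨fun s hs => (hg s hs).differentiableWithinAt, by simp, ?_⟩
  exact hg'.congr (fun s hs => (hg s hs).derivWithin (uniqueDiffOn_Ici 0 s hs))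

/-- `T c` preserves smoothness on the closed half line -/
lemma T_contDiffOn (m : ℕ) : ∀ {c : ℝ}, 0 ≤ c → ∀ {g : ℝ → ℝ}, ContDiffOn ℝ m g (Ici 0) →
    ContDiffOn ℝ m (T c g) (Ici 0) := by
  induction m with
  | zero =>
    intro c hc g hg
    have hg' : ContinuousOn g (Ici 0) := hg.continuousOn
    exact contDiffOn_zero.2 (T_continuousOn hc hg')
  | succ m ih =>
    intro c hc g hg
    have hg2 := hg
    push_cast at hg2
    rw [contDiffOn_succ_iff_derivWithin (uniqueDiffOn_Ici 0)] at hg2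
    obtain ⟨hd, -, hg3⟩ := hg2
    set g' := derivWithin g (Ici 0) with hg'
    have hder : ∀ s, 0 ≤ s → HasDerivWithinAt g (g' s) (Ici 0) s := fun s hs =>
      (hd s hs).hasDerivWithinAt
    have hg1 : ContDiffOn ℝ m (T 0 g') (Ici 0) := ih le_rfl hg3
    have hTc : ∀ s, 0 ≤ s → T c g s = g 0 / (c + 1) + s * T (c + 1) (T 0 g') s := by
      intro s hs
      have e1 : T c g s = T c (fun x => g 0 + x * T 0 g' x) s :=
        T_congr hs (fun x hx => hadamard hder hg3.continuousOn hx)
      have e2 : ContinuousOn (fun x => x * T 0 g' x) (Ici 0) :=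
        continuousOn_id.mul hg1.continuousOn
      rw [e1, T_add (g := fun _ => g 0) hc continuousOn_const e2 hs, T_const hc, T_id_mul hc]
    have hc1 : (0:ℝ) ≤ c + 1 := by linarith
    have hres : ContDiffOn ℝ (m + 1) (T c g) (Ici 0) := by
      refine contDiffOn_succ_of (g' := fun s => T 0 g' s - (c + 1) * T (c + 1) (T 0 g') s) ?_ ?_
      · intro s hs
        have h1 := (sT_hasDerivWithinAt hc1 hg1.continuousOn hs).const_add (g 0 / (c + 1))
        exact h1.congr (fun x hx => hTc x hx) (hTc s hs)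
      · exact hg1.sub (contDiffOn_const.mul (ih hc1 hg1))
    exact_mod_cast hres

end Vale.Agent.Lib.P252
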